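import Crest.Agent.LP.Defs

/-! Module F: choice of a cell, rows and columns (pure combinatorics / triangle inequality). -/

set_option autoImplicit false

namespace Crest.Agent.LP

open Finset

namespace CellAux

theorem sum_block (P K : ℕ) (F : ℕ → ℝ) :
    ∑ a ∈ range (P * K), F a = ∑ p ∈ range P, ∑ s ∈ range K, F (p * K + s) := by
  induction P with
  | zero => simp
  | succ P ih => rw [Nat.succ_mul, Finset.sum_range_add, ih, Finset.sum_range_succ]

theorem block_choice (m h : ℕ) (hh : 0 < h) (R : ℕ → ℝ) (hR : ∀ t, 0 ≤ R t) (A : ℝ)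
    (hA : ∑ t ∈ range (m * h), R t ≤ h * A) (i : ℕ) (hi : i < m) :
    ∃ t, t < h ∧ R (i * h + t) ≤ A := by
  rw [sum_block] at hA
  have h1 : ∑ t ∈ range h, R (i * h + t) ≤ ∑ p ∈ range m, ∑ s ∈ range h, R (p * h + s) :=
    Finset.single_le_sum (f := fun p => ∑ s ∈ range h, R (p * h + s))
      (fun p _ => Finset.sum_nonneg (fun s _ => hR _)) (mem_range.mpr hi)
  have h2 : ∑ t ∈ range h, R (i * h + t) ≤ ∑ t ∈ range h, A := by
    rw [Finset.sum_const, card_range, nsmul_eq_mul]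
    exact h1.trans hA
  obtain ⟨t, ht, hle⟩ := Finset.exists_le_of_sum_le ⟨0, mem_range.mpr hh⟩ h2
  exact ⟨t, mem_range.mp ht, hle⟩

theorem tele {E : Type*} [NormedAddCommGroup E] (y : ℕ → E) (K s s' : ℕ) (hs : s < K)
    (hs' : s' < K) : ‖y s - y s'‖ ≤ ∑ t ∈ range K, ‖y (t + 1) - y t‖ := by
  wlog hle : s ≤ s' generalizing s s' with H
  · rw [norm_sub_rev]
    exact H s' s hs' hs (by omega)
  have h1 := dist_le_Ico_sum_dist y hle
  rw [dist_eq_norm] at h1
  refine h1.trans ?_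
  have h2 : ∑ i ∈ Ico s s', dist (y i) (y (i + 1)) = ∑ i ∈ Ico s s', ‖y (i + 1) - y i‖ :=
    Finset.sum_congr rfl (fun i _ => by rw [dist_comm, dist_eq_norm])
  rw [h2]
  refine Finset.sum_le_sum_of_subset_of_nonneg ?_ (fun i _ _ => norm_nonneg _)
  intro i hi
  rw [mem_Ico] at hi
  rw [mem_range]
  omega

end CellAux

open CellAux

/-- PROOF. Cells: `p < 1000 N`, `q < 1000 w N`; columns `a ∈ [p·mW, (p+1)·mW)` (`W = h w`), rows
`b ∈ [q·mh, (q+1)·mh)`.  By averaging there is a cell with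
`(1/h) ∑_cell ‖ΔH‖ + (1/W) ∑_cell ‖ΔV‖ ≤ c h/100` where
`ΔH a b = DH (row b) (a+1) b - DH (row b) a b`, `ΔV a b = DV (col a) a (b+1) - DV (col a) a b`
(total `≤ M² c/(100 m² W)`, number of cells `M²/(m² W h)`).
For `i < m` the rows `b = q m h + i h + t` (`t < h`) have colour `i`: choose `b i` among them with
`∑_{a ∈ cell} ‖ΔH a (b i)‖ ≤ c h/100`.  The columns `a = p m W + i W + t` (`t < W`) have colour `i`:
choose `a i` with `∑_{b ∈ cell} ‖ΔV (a i) b‖ ≤ c h/100`.  Put `d i = DH i a0 (b i)`, `a0 = p m W`.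
For `i ≠ j`, at the point `(a i, b j)`:
`c h ≤ ‖Dp i - Dp j‖`, `Dp i (a i)(b j) ~ DV i (a i)(b j) [2C] ~ DV i (a i)(b i) [ch/100]
 ~ Dp i (a i)(b i) [2C] ~ DH i (a i)(b i) [2C] ~ DH i a0 (b i) [ch/100]` and
`Dp j (a i)(b j) ~ DH j (a i)(b j) [2C] ~ DH j a0 (b j) [ch/100]`, total `8C + 3ch/100 ≤ ch/2`. -/
theorem cell_choice {E : Type*} [NormedAddCommGroup E] [NormedSpace ℝ E]
    (m h w N : ℕ) (hm : 0 < m) (hh : 0 < h) (hw : 0 < w) (hN : 0 < N)
    (C c : ℝ) (hC : 0 < C) (hc : 0 < c) (h80 : 80 * C ≤ c * h)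
    (Dp DH DV : ℕ → ℕ → ℕ → E)
    (ha : ∀ a < bigM m h w N, ∀ b < bigM m h w N, ‖DH (rowOf m h b) a b‖ ≤ 7 * C * h)
    (hb1 : ∀ a < bigM m h w N, ∀ b < bigM m h w N,
      ‖Dp (rowOf m h b) a b - DH (rowOf m h b) a b‖ ≤ 2 * C)
    (hb2 : ∀ a < bigM m h w N, ∀ b < bigM m h w N,
      ‖Dp (colOf m h w a) a b - DV (colOf m h w a) a b‖ ≤ 2 * C)
    (hsep : ∀ a < bigM m h w N, ∀ b < bigM m h w N, colOf m h w a ≠ rowOf m h b →
      c * h ≤ ‖Dp (colOf m h w a) a b - Dp (rowOf m h b) a b‖)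
    (sH : ∑ a ∈ range (bigM m h w N), ∑ b ∈ range (bigM m h w N),
        ‖DH (rowOf m h b) (a + 1) b - DH (rowOf m h b) a b‖
        ≤ (bigM m h w N : ℝ) ^ 2 * (c / (200 * m ^ 2 * w)))
    (sV : ∑ a ∈ range (bigM m h w N), ∑ b ∈ range (bigM m h w N),
        ‖DV (colOf m h w a) a (b + 1) - DV (colOf m h w a) a b‖
        ≤ (bigM m h w N : ℝ) ^ 2 * (c / (200 * m ^ 2))) :
    ∃ d : ℕ → E, (∀ i < m, ‖d i‖ ≤ 7 * C * h) ∧
      ∀ i < m, ∀ j < m, i ≠ j → c * h / 2 ≤ ‖d i - d j‖ := by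
  set W : ℕ := h * w with hWdef
  have hW : 0 < W := Nat.mul_pos hh hw
  set P : ℕ := 1000 * N with hPdef
  set Q : ℕ := 1000 * w * N with hQdef
  have hP : 0 < P := by positivity
  have hQ : 0 < Q := by positivity
  have hM1 : bigM m h w N = P * (m * W) := by
    rw [bigM, hPdef, hWdef]; ring
  have hM2 : bigM m h w N = Q * (m * h) := by
    rw [bigM, hQdef]; ring
  -- the two nonnegative functions
  set f : ℕ → ℕ → ℝ := fun a b => ‖DH (rowOf m h b) (a + 1) b - DH (rowOf m h b) a b‖ with hf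
  set g : ℕ → ℕ → ℝ := fun a b => ‖DV (colOf m h w a) a (b + 1) - DV (colOf m h w a) a b‖ with hg
  have hf0 : ∀ a b, 0 ≤ f a b := fun a b => norm_nonneg _
  have hg0 : ∀ a b, 0 ≤ g a b := fun a b => norm_nonneg _
  have split : ∀ F : ℕ → ℕ → ℝ, ∑ a ∈ range (bigM m h w N), ∑ b ∈ range (bigM m h w N), F a b
      = ∑ x ∈ range P ×ˢ range Q, ∑ s ∈ range (m * W), ∑ t ∈ range (m * h),
          F (x.1 * (m * W) + s) (x.2 * (m * h) + t) := by
    intro F
    have hb : ∀ a, ∑ b ∈ range (bigM m h w N), F a b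
        = ∑ q ∈ range Q, ∑ t ∈ range (m * h), F a (q * (m * h) + t) := by
      intro a
      rw [hM2, sum_block]
    rw [Finset.sum_product, Finset.sum_congr rfl (fun a _ => hb a), hM1, sum_block]
    refine Finset.sum_congr rfl (fun p _ => ?_)
    rw [Finset.sum_comm]
  have hmR : (0 : ℝ) < m := by exact_mod_cast hm
  have hhR : (0 : ℝ) < h := by exact_mod_cast hh
  have hwR : (0 : ℝ) < w := by exact_mod_cast hw
  have hWR : (0 : ℝ) < W := by exact_mod_cast hW
  have hWR' : (W : ℝ) = h * w := by rw [hWdef]; push_cast; ring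
  -- choice of the cell
  have htot : ∑ x ∈ range P ×ˢ range Q,
      ((∑ s ∈ range (m * W), ∑ t ∈ range (m * h),
          f (x.1 * (m * W) + s) (x.2 * (m * h) + t)) / h +
        (∑ s ∈ range (m * W), ∑ t ∈ range (m * h),
          g (x.1 * (m * W) + s) (x.2 * (m * h) + t)) / W) ≤
      ∑ x ∈ range P ×ˢ range Q, (c * h / 100) := by
    rw [Finset.sum_add_distrib, ← Finset.sum_div, ← Finset.sum_div, ← split f, ← split g]
    have h1 : (∑ a ∈ range (bigM m h w N), ∑ b ∈ range (bigM m h w N), f a b) / (h : ℝ) ≤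
        ((bigM m h w N : ℝ) ^ 2 * (c / (200 * m ^ 2 * w))) / h := by
      gcongr
    have h2 : (∑ a ∈ range (bigM m h w N), ∑ b ∈ range (bigM m h w N), g a b) / (W : ℝ) ≤
        ((bigM m h w N : ℝ) ^ 2 * (c / (200 * m ^ 2))) / W := by
      gcongr
    refine (add_le_add h1 h2).trans (le_of_eq ?_)
    rw [Finset.sum_const, Finset.card_product, card_range, card_range, nsmul_eq_mul]
    have e1 : (bigM m h w N : ℝ) ^ 2 = ((P : ℝ) * (m * (h * w))) * ((Q : ℝ) * (m * h)) := by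
      rw [sq]
      conv_lhs => rw [hM1, ← hM1]
      nth_rewrite 1 [hM1]
      rw [hM2]
      push_cast
      rw [hWR']
    rw [e1, hWR']
    push_cast
    field_simp
    ring
  obtain ⟨⟨p, q⟩, hpq, hle⟩ := Finset.exists_le_of_sum_le
    (show (range P ×ˢ range Q).Nonempty from
      ⟨(0, 0), Finset.mem_product.mpr ⟨mem_range.mpr hP, mem_range.mpr hQ⟩⟩) htot
  rw [Finset.mem_product, mem_range, mem_range] at hpq
  obtain ⟨hp, hq⟩ := hpq
  simp only at hp hq hle
  set a0 : ℕ := p * (m * W) with ha0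
  set b0 : ℕ := q * (m * h) with hb0
  set SH : ℝ := ∑ s ∈ range (m * W), ∑ t ∈ range (m * h), f (a0 + s) (b0 + t) with hSH
  set SV : ℝ := ∑ s ∈ range (m * W), ∑ t ∈ range (m * h), g (a0 + s) (b0 + t) with hSV
  have hSH0 : 0 ≤ SH := Finset.sum_nonneg fun s _ => Finset.sum_nonneg fun t _ => hf0 _ _
  have hSV0 : 0 ≤ SV := Finset.sum_nonneg fun s _ => Finset.sum_nonneg fun t _ => hg0 _ _
  have hSH1 : SH ≤ h * (c * h / 100) := by
    have : SH / h ≤ c * h / 100 := by
      have : 0 ≤ SV / W := by positivity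
      linarith
    rwa [div_le_iff₀ hhR, mul_comm] at this
  have hSV1 : SV ≤ W * (c * h / 100) := by
    have : SV / W ≤ c * h / 100 := by
      have : 0 ≤ SH / h := by positivity
      linarith
    rwa [div_le_iff₀ hWR, mul_comm] at this
  -- bounds of positions
  have hacell : ∀ s < m * W, a0 + s < bigM m h w N := by
    intro s hs
    rw [hM1, ha0]
    calc p * (m * W) + s < p * (m * W) + m * W := by omega
      _ = (p + 1) * (m * W) := by ring
      _ ≤ P * (m * W) := Nat.mul_le_mul_right _ hp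
  have hbcell : ∀ t < m * h, b0 + t < bigM m h w N := by
    intro t ht
    rw [hM2, hb0]
    calc q * (m * h) + t < q * (m * h) + m * h := by omega
      _ = (q + 1) * (m * h) := by ring
      _ ≤ Q * (m * h) := Nat.mul_le_mul_right _ hq
  have hin : ∀ (n i t : ℕ), i < m → t < n → i * n + t < m * n := by
    intro n i t hi ht
    calc i * n + t < i * n + n := by omega
      _ = (i + 1) * n := by ring
      _ ≤ m * n := Nat.mul_le_mul_right _ hi
  have hrow : ∀ i < m, ∀ t < h, rowOf m h (b0 + (i * h + t)) = i := by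
    intro i hi t ht
    rw [rowOf, hb0, show q * (m * h) + (i * h + t) = t + (q * m + i) * h by ring,
      Nat.add_mul_div_right _ _ hh, Nat.div_eq_of_lt ht, zero_add,
      show q * m + i = i + q * m by ring, Nat.add_mul_mod_self_right, Nat.mod_eq_of_lt hi]
  have hcol : ∀ i < m, ∀ t < W, colOf m h w (a0 + (i * W + t)) = i := by
    intro i hi t ht
    rw [colOf, ← hWdef, ha0, show p * (m * W) + (i * W + t) = t + (p * m + i) * W by ring,
      Nat.add_mul_div_right _ _ hW, Nat.div_eq_of_lt ht, zero_add,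
      show p * m + i = i + p * m by ring, Nat.add_mul_mod_self_right, Nat.mod_eq_of_lt hi]
  -- choice of rows
  have hrows : ∀ i, i < m → ∃ t, t < h ∧
      ∑ s ∈ range (m * W), f (a0 + s) (b0 + (i * h + t)) ≤ c * h / 100 := by
    intro i hi
    refine block_choice m h hh (fun t => ∑ s ∈ range (m * W), f (a0 + s) (b0 + t))
      (fun t => Finset.sum_nonneg fun s _ => hf0 _ _) _ ?_ i hi
    rw [Finset.sum_comm]
    exact hSH1
  have hcols : ∀ i, i < m → ∃ t, t < W ∧
      ∑ s ∈ range (m * h), g (a0 + (i * W + t)) (b0 + s) ≤ c * h / 100 := by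
    intro i hi
    refine block_choice m W hW (fun s => ∑ t ∈ range (m * h), g (a0 + s) (b0 + t))
      (fun t => Finset.sum_nonneg fun s _ => hg0 _ _) _ ?_ i hi
    exact hSV1
  choose! tr htr hrs using hrows
  choose! tc htc hcs using hcols
  -- positions (relative)
  set br : ℕ → ℕ := fun i => i * h + tr i with hbr
  set ar : ℕ → ℕ := fun i => i * W + tc i with har
  have hbr1 : ∀ i < m, br i < m * h := fun i hi => hin h i (tr i) hi (htr i hi)
  have har1 : ∀ i < m, ar i < m * W := fun i hi => hin W i (tc i) hi (htc i hi)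
  have hmW : 0 < m * W := Nat.mul_pos hm hW
  have hrowi : ∀ i < m, rowOf m h (b0 + br i) = i := fun i hi => hrow i hi _ (htr i hi)
  have hcoli : ∀ i < m, colOf m h w (a0 + ar i) = i := fun i hi => hcol i hi _ (htc i hi)
  have hH : ∀ i < m, ∀ s < m * W, ‖DH i (a0 + s) (b0 + br i) - DH i a0 (b0 + br i)‖
      ≤ c * h / 100 := by
    intro i hi s hs
    have h1 := tele (fun s => DH i (a0 + s) (b0 + br i)) (m * W) s 0 hs hmW
    simp only [add_zero] at h1
    refine h1.trans (le_trans (le_of_eq ?_) (hrs i hi))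
    refine Finset.sum_congr rfl (fun t _ => ?_)
    simp only [hf]
    rw [hrow i hi _ (htr i hi)]
    rfl
  have hV : ∀ i < m, ∀ t < m * h, ∀ t' < m * h,
      ‖DV i (a0 + ar i) (b0 + t) - DV i (a0 + ar i) (b0 + t')‖ ≤ c * h / 100 := by
    intro i hi t ht t' ht'
    have h1 := tele (fun s => DV i (a0 + ar i) (b0 + s)) (m * h) t t' ht ht'
    refine h1.trans (le_trans (le_of_eq ?_) (hcs i hi))
    refine Finset.sum_congr rfl (fun t _ => ?_)
    simp only [hg]
    rw [hcol i hi _ (htc i hi)]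
    rfl
  refine ⟨fun i => DH i a0 (b0 + br i), fun i hi => ?_, fun i hi j hj hij => ?_⟩
  · have := ha a0 (by simpa using hacell 0 hmW) (b0 + br i) (hbcell _ (hbr1 i hi))
    rwa [hrowi i hi] at this
  · have hai := hacell _ (har1 i hi)
    have hbi := hbcell _ (hbr1 i hi)
    have hbj := hbcell _ (hbr1 j hj)
    have s1 := hsep (a0 + ar i) hai (b0 + br j) hbj (by rw [hcoli i hi, hrowi j hj]; exact hij)
    rw [hcoli i hi, hrowi j hj] at s1
    have s2 := hb2 (a0 + ar i) hai (b0 + br j) hbj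
    rw [hcoli i hi] at s2
    have s3 := hV i hi (br j) (hbr1 j hj) (br i) (hbr1 i hi)
    have s4 := hb2 (a0 + ar i) hai (b0 + br i) hbi
    rw [hcoli i hi] at s4
    have s5 := hb1 (a0 + ar i) hai (b0 + br i) hbi
    rw [hrowi i hi] at s5
    have s6 := hH i hi (ar i) (har1 i hi)
    have s7 := hb1 (a0 + ar i) hai (b0 + br j) hbj
    rw [hrowi j hj] at s7
    have s8 := hH j hj (ar i) (har1 i hi)
    have key : Dp i (a0 + ar i) (b0 + br j) - Dp j (a0 + ar i) (b0 + br j)
        = (Dp i (a0 + ar i) (b0 + br j) - DV i (a0 + ar i) (b0 + br j))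
        + (DV i (a0 + ar i) (b0 + br j) - DV i (a0 + ar i) (b0 + br i))
        - (Dp i (a0 + ar i) (b0 + br i) - DV i (a0 + ar i) (b0 + br i))
        + (Dp i (a0 + ar i) (b0 + br i) - DH i (a0 + ar i) (b0 + br i))
        + (DH i (a0 + ar i) (b0 + br i) - DH i a0 (b0 + br i))
        - (Dp j (a0 + ar i) (b0 + br j) - DH j (a0 + ar i) (b0 + br j))
        - (DH j (a0 + ar i) (b0 + br j) - DH j a0 (b0 + br j))
        + (DH i a0 (b0 + br i) - DH j a0 (b0 + br j)) := by abel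
    rw [key] at s1
    have t1 := norm_add_le
      ((Dp i (a0 + ar i) (b0 + br j) - DV i (a0 + ar i) (b0 + br j))
        + (DV i (a0 + ar i) (b0 + br j) - DV i (a0 + ar i) (b0 + br i))
        - (Dp i (a0 + ar i) (b0 + br i) - DV i (a0 + ar i) (b0 + br i))
        + (Dp i (a0 + ar i) (b0 + br i) - DH i (a0 + ar i) (b0 + br i))
        + (DH i (a0 + ar i) (b0 + br i) - DH i a0 (b0 + br i))
        - (Dp j (a0 + ar i) (b0 + br j) - DH j (a0 + ar i) (b0 + br j))
        - (DH j (a0 + ar i) (b0 + br j) - DH j a0 (b0 + br j)))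
      (DH i a0 (b0 + br i) - DH j a0 (b0 + br j))
    have t2 := norm_sub_le
      ((Dp i (a0 + ar i) (b0 + br j) - DV i (a0 + ar i) (b0 + br j))
        + (DV i (a0 + ar i) (b0 + br j) - DV i (a0 + ar i) (b0 + br i))
        - (Dp i (a0 + ar i) (b0 + br i) - DV i (a0 + ar i) (b0 + br i))
        + (Dp i (a0 + ar i) (b0 + br i) - DH i (a0 + ar i) (b0 + br i))
        + (DH i (a0 + ar i) (b0 + br i) - DH i a0 (b0 + br i))
        - (Dp j (a0 + ar i) (b0 + br j) - DH j (a0 + ar i) (b0 + br j)))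
      (DH j (a0 + ar i) (b0 + br j) - DH j a0 (b0 + br j))
    have t3 := norm_sub_le
      ((Dp i (a0 + ar i) (b0 + br j) - DV i (a0 + ar i) (b0 + br j))
        + (DV i (a0 + ar i) (b0 + br j) - DV i (a0 + ar i) (b0 + br i))
        - (Dp i (a0 + ar i) (b0 + br i) - DV i (a0 + ar i) (b0 + br i))
        + (Dp i (a0 + ar i) (b0 + br i) - DH i (a0 + ar i) (b0 + br i))
        + (DH i (a0 + ar i) (b0 + br i) - DH i a0 (b0 + br i)))
      (Dp j (a0 + ar i) (b0 + br j) - DH j (a0 + ar i) (b0 + br j))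
    have t4 := norm_add_le
      ((Dp i (a0 + ar i) (b0 + br j) - DV i (a0 + ar i) (b0 + br j))
        + (DV i (a0 + ar i) (b0 + br j) - DV i (a0 + ar i) (b0 + br i))
        - (Dp i (a0 + ar i) (b0 + br i) - DV i (a0 + ar i) (b0 + br i))
        + (Dp i (a0 + ar i) (b0 + br i) - DH i (a0 + ar i) (b0 + br i)))
      (DH i (a0 + ar i) (b0 + br i) - DH i a0 (b0 + br i))
    have t5 := norm_add_le
      ((Dp i (a0 + ar i) (b0 + br j) - DV i (a0 + ar i) (b0 + br j))
        + (DV i (a0 + ar i) (b0 + br j) - DV i (a0 + ar i) (b0 + br i))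
        - (Dp i (a0 + ar i) (b0 + br i) - DV i (a0 + ar i) (b0 + br i)))
      (Dp i (a0 + ar i) (b0 + br i) - DH i (a0 + ar i) (b0 + br i))
    have t6 := norm_sub_le
      ((Dp i (a0 + ar i) (b0 + br j) - DV i (a0 + ar i) (b0 + br j))
        + (DV i (a0 + ar i) (b0 + br j) - DV i (a0 + ar i) (b0 + br i)))
      (Dp i (a0 + ar i) (b0 + br i) - DV i (a0 + ar i) (b0 + br i))
    have t7 := norm_add_le
      (Dp i (a0 + ar i) (b0 + br j) - DV i (a0 + ar i) (b0 + br j))
      (DV i (a0 + ar i) (b0 + br j) - DV i (a0 + ar i) (b0 + br i))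
    have hch : 0 < c * h := by positivity
    linarith

end Crest.Agent.LP
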