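import Crest.Agent.LP.Defs

/-! Module B: summability, compactness of `K`, tiles are contained in `K`. -/

set_option autoImplicit false

namespace Crest.Agent.LP

variable {B : Type*} [NormedAddCommGroup B] [NormedSpace ℝ B] (S : Sys) (V : Vec B)

/-- `‖X‖ ≤ 7 h` -/
theorem norm_X_le (l a b : ℕ) (s : Fin 3) : ‖X S V l a b s‖ ≤ 7 * S.h l := by
  have hh : (0 : ℝ) ≤ S.h l := Nat.cast_nonneg _
  have key : ∀ i, ‖(S.h l : ℝ) • V.v i‖ ≤ 7 * S.h l := by
    intro i
    rw [norm_smul, Real.norm_eq_abs, abs_of_nonneg hh, mul_comm]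
    exact mul_le_mul_of_nonneg_right (V.v_le i) hh
  unfold X
  split_ifs
  · rw [norm_zero]; positivity
  · exact key _
  · exact key _

/-- each digit contributes at most `3 r_l` : `r_{l+1}(2 M_l + 7 h_l) ≤ 3 r_l` -/
theorem norm_dig_le (l a b : ℕ) (s : Fin 3) (ha : a < S.M l) (hb : b < S.M l) :
    ‖S.r (l + 1) • dig S V l a b s‖ ≤ 3 * S.r l := by
  have hr : 0 < S.r (l + 1) := S.r_pos _
  have h1 : ‖dig S V l a b s‖ ≤ (a : ℝ) + b + 7 * S.h l := by
    unfold dig
    refine (norm_add_le _ _).trans (add_le_add ((norm_add_le _ _).trans (add_le_add ?_ ?_))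
      (norm_X_le S V l a b s))
    · rw [norm_smul, Real.norm_eq_abs, abs_of_nonneg (Nat.cast_nonneg a)]
      exact mul_le_of_le_one_right (Nat.cast_nonneg a) V.e1_le
    · rw [norm_smul, Real.norm_eq_abs, abs_of_nonneg (Nat.cast_nonneg b)]
      exact mul_le_of_le_one_right (Nat.cast_nonneg b) V.e2_le
  have h2 : (a : ℝ) ≤ S.M l := by exact_mod_cast ha.le
  have h3 : (b : ℝ) ≤ S.M l := by exact_mod_cast hb.le
  have h4 : 1000 * (S.h l : ℝ) ≤ S.M l := by exact_mod_cast S.M_ge_h l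
  have h5 : (0 : ℝ) ≤ S.h l := Nat.cast_nonneg _
  rw [norm_smul, Real.norm_eq_abs, abs_of_pos hr]
  calc S.r (l + 1) * ‖dig S V l a b s‖ ≤ S.r (l + 1) * (3 * S.M l) := by
        apply mul_le_mul_of_nonneg_left _ hr.le
        linarith
    _ = 3 * (S.M l * S.r (l + 1)) := by ring
    _ = 3 * S.r l := by rw [S.M_mul_r]

theorem summable_r : Summable S.r := by
  refine Summable.of_nonneg_of_le (fun l => (S.r_pos l).le) (fun l => S.r_le_pow l) ?_
  exact summable_geometric_of_lt_one (by norm_num) (by norm_num)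

theorem summable_pt [CompleteSpace B] (ω : Om S) :
    Summable fun l => S.r (l + 1) • dig S V l (ω l).1 (ω l).2.1 (ω l).2.2 := by
  refine Summable.of_norm_bounded (g := fun l => 3 * S.r l) ((summable_r S).mul_left 3) ?_
  intro l
  exact norm_dig_le S V l _ _ _ (ω l).1.2 (ω l).2.1.2

/-- PROOF. `Om S` is compact (`Pi.compactSpace`, finite discrete factors), `pt` is continuous by
`continuous_tsum` (each term depends on the single coordinate `ω l`, which lives in a discrete
space; the bound is `norm_dig_le` and `summable_r`). -/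
theorem isCompact_K [CompleteSpace B] : IsCompact (K S V) := by
  have hcont : Continuous (pt S V) := by
    refine continuous_tsum (u := fun l => 3 * S.r l) ?_ ((summable_r S).mul_left 3) ?_
    · intro l
      have hg : Continuous (fun x : Fin (S.M l) × Fin (S.M l) × Fin 3 =>
          S.r (l + 1) • dig S V l x.1 x.2.1 x.2.2) := continuous_of_discreteTopology
      exact hg.comp (continuous_apply l)
    · intro l ω
      exact norm_dig_le S V l _ _ _ (ω l).1.2 (ω l).2.1.2
  exact isCompact_range hcont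

/-- the remainders of the mixed radix expansion -/
noncomputable def rem (n : ℕ) (t : ℝ) : ℕ → ℝ
  | 0 => t
  | (k + 1) => (S.M (n + k) : ℝ) * rem n t k -
      ((min ⌊(S.M (n + k) : ℝ) * rem n t k⌋₊ (S.M (n + k) - 1) : ℕ) : ℝ)

theorem rem_mem (n : ℕ) (t : ℝ) (h0 : 0 ≤ t) (h1 : t ≤ 1) (k : ℕ) :
    0 ≤ rem S n t k ∧ rem S n t k ≤ 1 := by
  induction k with
  | zero => exact ⟨h0, h1⟩
  | succ k ih =>
    obtain ⟨ih0, ih1⟩ := ih
    have hM : (0 : ℝ) < S.M (n + k) := S.M_posR _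
    have hM' : 1 ≤ S.M (n + k) := S.M_pos _
    have hx0 : 0 ≤ (S.M (n + k) : ℝ) * rem S n t k := by positivity
    have hx1 : (S.M (n + k) : ℝ) * rem S n t k ≤ S.M (n + k) := by
      calc (S.M (n + k) : ℝ) * rem S n t k ≤ S.M (n + k) * 1 :=
            mul_le_mul_of_nonneg_left ih1 hM.le
        _ = _ := mul_one _
    have hfl : ((⌊(S.M (n + k) : ℝ) * rem S n t k⌋₊ : ℕ) : ℝ) ≤
        (S.M (n + k) : ℝ) * rem S n t k := Nat.floor_le hx0
    have hfl2 : (S.M (n + k) : ℝ) * rem S n t k <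
        (⌊(S.M (n + k) : ℝ) * rem S n t k⌋₊ : ℕ) + 1 := Nat.lt_floor_add_one _
    show 0 ≤ (S.M (n + k) : ℝ) * rem S n t k -
      ((min ⌊(S.M (n + k) : ℝ) * rem S n t k⌋₊ (S.M (n + k) - 1) : ℕ) : ℝ) ∧
      (S.M (n + k) : ℝ) * rem S n t k -
      ((min ⌊(S.M (n + k) : ℝ) * rem S n t k⌋₊ (S.M (n + k) - 1) : ℕ) : ℝ) ≤ 1
    rcases le_total ⌊(S.M (n + k) : ℝ) * rem S n t k⌋₊ (S.M (n + k) - 1) with h | h
    · rw [min_eq_left h]
      constructor <;> linarith
    · rw [min_eq_right h]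
      have hc : ((S.M (n + k) - 1 : ℕ) : ℝ) = (S.M (n + k) : ℝ) - 1 := by
        rw [Nat.cast_sub hM']; norm_num
      have hc2 : ((S.M (n + k) - 1 : ℕ) : ℝ) ≤ (⌊(S.M (n + k) : ℝ) * rem S n t k⌋₊ : ℕ) := by
        exact_mod_cast h
      constructor
      · linarith
      · rw [hc]; linarith

/-- Mixed radix expansion.
PROOF. `t₀ = t`, `a_k = min ⌊M t_k⌋ (M-1)`, `t_{k+1} = M t_k - a_k ∈ [0,1]` (`M = M_{n+k}`),
`r_n t = ∑_{k<K} r_{n+k+1} a_k + r_{n+K} t_K`, and `r_{n+K} → 0`. -/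
theorem exists_digits (n : ℕ) (t : ℝ) (h0 : 0 ≤ t) (h1 : t ≤ 1) :
    ∃ a : ℕ → ℕ, (∀ l, a l < S.M l) ∧
      HasSum (fun k => S.r (n + k + 1) * (a (n + k) : ℝ)) (S.r n * t) := by
  refine ⟨fun l => min ⌊(S.M l : ℝ) * rem S n t (l - n)⌋₊ (S.M l - 1), ?_, ?_⟩
  · intro l
    have hM' : 1 ≤ S.M l := S.M_pos _
    exact lt_of_le_of_lt (min_le_right _ _) (by omega)
  · have hpart : ∀ K : ℕ, ∑ k ∈ Finset.range K, S.r (n + k + 1) *
        ((min ⌊(S.M (n + k) : ℝ) * rem S n t (n + k - n)⌋₊ (S.M (n + k) - 1) : ℕ) : ℝ) =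
        S.r n * t - S.r (n + K) * rem S n t K := by
      intro K
      induction K with
      | zero => simp [rem]
      | succ K ih =>
        rw [Finset.sum_range_succ, ih]
        have h2 : n + K - n = K := by omega
        rw [h2]
        have h3 : rem S n t (K + 1) = (S.M (n + K) : ℝ) * rem S n t K -
          ((min ⌊(S.M (n + K) : ℝ) * rem S n t K⌋₊ (S.M (n + K) - 1) : ℕ) : ℝ) := rfl
        have h4 : S.r (n + (K + 1)) = S.r (n + K + 1) := rfl
        rw [h3, h4]
        have h5 := S.M_mul_r (n + K)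
        rw [← h5]
        ring
    rw [hasSum_iff_tendsto_nat_of_nonneg]
    · have hlim : Filter.Tendsto (fun K => S.r (n + K) * rem S n t K) Filter.atTop (nhds 0) := by
        have hr0 : Filter.Tendsto (fun K => S.r (n + K)) Filter.atTop (nhds 0) := by
          have h2 := (summable_r S).tendsto_atTop_zero
          have h3 : Filter.Tendsto (fun K => n + K) Filter.atTop Filter.atTop :=
            Filter.tendsto_atTop_mono (fun K => Nat.le_add_left K n) Filter.tendsto_id
          exact h2.comp h3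
        refine squeeze_zero (fun K => mul_nonneg (S.r_pos _).le (rem_mem S n t h0 h1 K).1)
          (fun K => ?_) hr0
        exact mul_le_of_le_one_right (S.r_pos _).le (rem_mem S n t h0 h1 K).2
      have h2 : Filter.Tendsto (fun K => S.r n * t - S.r (n + K) * rem S n t K) Filter.atTop
          (nhds (S.r n * t - 0)) := tendsto_const_nhds.sub hlim
      rw [sub_zero] at h2
      refine h2.congr (fun K => ?_)
      rw [← hpart K]
    · intro k
      exact mul_nonneg (S.r_pos _).le (Nat.cast_nonneg _)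

theorem corner_sum (n : ℕ) (z : B) (hz : Corner S V n z) :
    ∃ ω : Om S, z = ∑ l ∈ Finset.range n,
      S.r (l + 1) • dig S V l (ω l).1 (ω l).2.1 (ω l).2.2 := by
  induction hz with
  | zero =>
    exact ⟨fun l => (⟨0, S.M_pos l⟩, ⟨0, S.M_pos l⟩, 0), by simp⟩
  | step n z a b s ha hb hz ih =>
    obtain ⟨ω, hω⟩ := ih
    refine ⟨Function.update ω n (⟨a, ha⟩, ⟨b, hb⟩, s), ?_⟩
    rw [Finset.sum_range_succ]
    rw [Function.update_self]
    congr 1
    rw [hω]
    apply Finset.sum_congr rfl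
    intro l hl
    have hne : l ≠ n := (Finset.mem_range.mp hl).ne
    rw [Function.update_of_ne hne]

/-- The tile of a corner is contained in `K`.
PROOF. A corner is a finite sum `∑_{l<n} r_{l+1} • dig l (ω l)`; append the digits of
`exists_digits` for `p` and `q` with `s = 0` (so `X = 0`). -/
theorem tile_mem [CompleteSpace B] (n : ℕ) (z : B) (hz : Corner S V n z) (p q : ℝ)
    (hp0 : 0 ≤ p) (hp1 : p ≤ 1) (hq0 : 0 ≤ q) (hq1 : q ≤ 1) :
    z + S.r n • (p • V.e1 + q • V.e2) ∈ K S V := by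
  obtain ⟨ω, hω⟩ := corner_sum S V n z hz
  obtain ⟨a, haM, ha⟩ := exists_digits S n p hp0 hp1
  obtain ⟨b, hbM, hb⟩ := exists_digits S n q hq0 hq1
  let ω' : Om S := fun l => if l < n then ω l else (⟨a l, haM l⟩, ⟨b l, hbM l⟩, 0)
  refine ⟨ω', ?_⟩
  have hsum : HasSum (fun k => S.r (k + n + 1) •
      dig S V (k + n) (ω' (k + n)).1 (ω' (k + n)).2.1 (ω' (k + n)).2.2)
      (S.r n • (p • V.e1 + q • V.e2)) := by
    have h1 := (ha.smul_const V.e1).add (hb.smul_const V.e2)
    have h2 : (S.r n * p) • V.e1 + (S.r n * q) • V.e2 = S.r n • (p • V.e1 + q • V.e2) := by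
      rw [smul_add, smul_smul, smul_smul]
    rw [h2] at h1
    refine h1.congr_fun ?_ |> fun h => h
    intro k
    have hk : ω' (k + n) = (⟨a (k + n), haM _⟩, ⟨b (k + n), hbM _⟩, 0) := by
      simp only [ω']
      rw [if_neg (by omega)]
    rw [hk]
    simp only [dig, X, if_true, add_zero]
    rw [smul_add, smul_smul, smul_smul, Nat.add_comm k n]
  have h3 : HasSum (fun l => S.r (l + 1) • dig S V l (ω' l).1 (ω' l).2.1 (ω' l).2.2)
      (S.r n • (p • V.e1 + q • V.e2) + ∑ l ∈ Finset.range n,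
        S.r (l + 1) • dig S V l (ω' l).1 (ω' l).2.1 (ω' l).2.2) :=
    (hasSum_nat_add_iff n).mp hsum
  have h4 : ∑ l ∈ Finset.range n, S.r (l + 1) • dig S V l (ω' l).1 (ω' l).2.1 (ω' l).2.2 = z := by
    rw [hω]
    apply Finset.sum_congr rfl
    intro l hl
    have : ω' l = ω l := by
      simp only [ω']
      rw [if_pos (Finset.mem_range.mp hl)]
    rw [this]
  rw [h4, add_comm] at h3
  exact h3.tsum_eq

end Crest.Agent.LP
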