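import Crest.Agent.LP.Defs

/-! Module D: edge averages. -/

set_option autoImplicit false

namespace Crest.Agent.LP

open Finset

variable {B : Type*} [NormedAddCommGroup B] [NormedSpace ℝ B] (V : Vec B)
variable {E : Type*} [NormedAddCommGroup E] [NormedSpace ℝ E] [CompleteSpace E] (F : B → E)

/-- `∫₀¹ g = (1/M) ∑_{b<M} ∫₀¹ g((b+y)/M) dy`. -/
theorem integral_split (g : ℝ → E) (hg : ContinuousOn g (Set.Icc 0 1)) (M : ℕ) (hM : 0 < M) :
    ∫ y in (0 : ℝ)..1, g y =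
      (M : ℝ)⁻¹ • ∑ b ∈ range M, ∫ y in (0 : ℝ)..1, g (((b : ℝ) + y) / M) := by
  have hM' : (0 : ℝ) < M := by exact_mod_cast hM
  have h1 : ∀ b ∈ range M, (∫ y in (0 : ℝ)..1, g (((b : ℝ) + y) / M)) =
      (M : ℝ) • ∫ x in ((b : ℝ) / M)..(((b + 1 : ℕ) : ℝ) / M), g x := by
    intro b _
    have h2 : (fun y : ℝ => g (((b : ℝ) + y) / M)) = fun y : ℝ => g ((b : ℝ) / M + y / M) := by
      funext y
      rw [add_div]
    rw [h2, intervalIntegral.integral_comp_add_div g hM'.ne' ((b : ℝ) / M)]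
    congr 2
    · simp
    · push_cast
      rw [add_div]
  rw [Finset.sum_congr rfl h1, ← Finset.smul_sum, smul_smul, inv_mul_cancel₀ hM'.ne', one_smul]
  rw [intervalIntegral.sum_integral_adjacent_intervals (a := fun b : ℕ => (b : ℝ) / M)]
  · simp [div_self hM'.ne']
  · intro b hb
    apply ContinuousOn.intervalIntegrable
    apply hg.mono
    rw [Set.uIcc_of_le (by gcongr; exact Nat.le_succ b)]
    apply Set.Icc_subset_Icc
    · positivity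
    · rw [div_le_one hM']
      exact_mod_cast Nat.succ_le_of_lt hb

/-- vertical edge of length `M ρ'` = average of `M` edges of length `ρ'` -/
theorem vE_split (ρ' : ℝ) (M : ℕ) (hM : 0 < M) (z : B)
    (hg : ContinuousOn (fun y : ℝ => F (z + (M * ρ') • (y • V.e2))) (Set.Icc 0 1)) :
    vE V F (M * ρ') z =
      (M : ℝ)⁻¹ • ∑ b ∈ range M, vE V F ρ' (z + ρ' • ((b : ℝ) • V.e2)) := by
  have hM' : (0 : ℝ) < M := by exact_mod_cast hM
  unfold vE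
  rw [integral_split _ hg M hM]
  congr 1
  refine Finset.sum_congr rfl fun b _ => ?_
  congr 1
  funext y
  congr 1
  rw [add_assoc]
  congr 1
  rw [smul_smul, smul_smul, smul_smul, ← add_smul]
  congr 1
  field_simp

theorem hE_split (ρ' : ℝ) (M : ℕ) (hM : 0 < M) (z : B)
    (hg : ContinuousOn (fun x : ℝ => F (z + (M * ρ') • (x • V.e1))) (Set.Icc 0 1)) :
    hE V F (M * ρ') z =
      (M : ℝ)⁻¹ • ∑ a ∈ range M, hE V F ρ' (z + ρ' • ((a : ℝ) • V.e1)) := by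
  have hM' : (0 : ℝ) < M := by exact_mod_cast hM
  unfold hE
  rw [integral_split _ hg M hM]
  congr 1
  refine Finset.sum_congr rfl fun b _ => ?_
  congr 1
  funext y
  congr 1
  rw [add_assoc]
  congr 1
  rw [smul_smul, smul_smul, smul_smul, ← add_smul]
  congr 1
  field_simp

omit [CompleteSpace E] in
/-- abstract telescoping used for `al1_avg` and `al2_avg` -/
theorem edge_telescope (G : B → E) (ρ' : ℝ) (hρ : 0 < ρ') (M : ℕ) (hM : 0 < M) (z e f : B)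
    (I0 I1 : E)
    (h0 : I0 = (M : ℝ)⁻¹ • ∑ b ∈ range M, G (z + ρ' • ((b : ℝ) • f)))
    (h1 : I1 = (M : ℝ)⁻¹ • ∑ b ∈ range M, G (z + (M * ρ') • e + ρ' • ((b : ℝ) • f))) :
    ((M : ℝ) ^ 2) • ((M * ρ')⁻¹ • (I1 - I0)) =
      ∑ b ∈ range M, ∑ a ∈ range M,
        ρ'⁻¹ • (G (z + ρ' • ((a : ℝ) • e + (b : ℝ) • f) + ρ' • e) -
          G (z + ρ' • ((a : ℝ) • e + (b : ℝ) • f))) := by
  have hM' : (0 : ℝ) < M := by exact_mod_cast hM
  have key : ∀ b ∈ range M, ∑ a ∈ range M,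
        ρ'⁻¹ • (G (z + ρ' • ((a : ℝ) • e + (b : ℝ) • f) + ρ' • e) -
          G (z + ρ' • ((a : ℝ) • e + (b : ℝ) • f))) =
        ρ'⁻¹ • (G (z + (M * ρ') • e + ρ' • ((b : ℝ) • f)) - G (z + ρ' • ((b : ℝ) • f))) := by
    intro b _
    rw [← Finset.smul_sum]
    congr 1
    have := Finset.sum_range_sub
      (fun a : ℕ => G (z + ρ' • ((a : ℝ) • e + (b : ℝ) • f))) M
    calc ∑ a ∈ range M, (G (z + ρ' • ((a : ℝ) • e + (b : ℝ) • f) + ρ' • e) -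
          G (z + ρ' • ((a : ℝ) • e + (b : ℝ) • f)))
        = ∑ a ∈ range M, (G (z + ρ' • (((a + 1 : ℕ) : ℝ) • e + (b : ℝ) • f)) -
          G (z + ρ' • ((a : ℝ) • e + (b : ℝ) • f))) := by
          refine Finset.sum_congr rfl fun a _ => ?_
          congr 2
          push_cast
          module
      _ = G (z + ρ' • (((M : ℕ) : ℝ) • e + (b : ℝ) • f)) -
            G (z + ρ' • (((0 : ℕ) : ℝ) • e + (b : ℝ) • f)) := this
      _ = _ := by
          congr 2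
          · module
          · push_cast
            module
  rw [Finset.sum_congr rfl key, h0, h1, ← Finset.smul_sum, Finset.sum_sub_distrib, ← smul_sub,
    smul_smul, smul_smul]
  congr 1
  field_simp

/-- `al1` of a tile is the average of `al1` over its `M²` subtiles
(`ρ' = ρ/M`; telescoping in `a`). -/
theorem al1_avg (ρ' : ℝ) (hρ : 0 < ρ') (M : ℕ) (hM : 0 < M) (z : B)
    (h0 : ContinuousOn (fun y : ℝ => F (z + (M * ρ') • (y • V.e2))) (Set.Icc 0 1))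
    (h1 : ContinuousOn (fun y : ℝ => F (z + (M * ρ') • V.e1 + (M * ρ') • (y • V.e2)))
      (Set.Icc 0 1)) :
    ((M : ℝ) ^ 2) • al1 V F (M * ρ') z =
      ∑ a ∈ range M, ∑ b ∈ range M,
        al1 V F ρ' (z + ρ' • ((a : ℝ) • V.e1 + (b : ℝ) • V.e2)) := by
  rw [Finset.sum_comm]
  unfold al1
  exact edge_telescope (vE V F ρ') ρ' hρ M hM z V.e1 V.e2 _ _
    (vE_split V F ρ' M hM z h0) (vE_split V F ρ' M hM _ h1)

theorem al2_avg (ρ' : ℝ) (hρ : 0 < ρ') (M : ℕ) (hM : 0 < M) (z : B)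
    (h0 : ContinuousOn (fun x : ℝ => F (z + (M * ρ') • (x • V.e1))) (Set.Icc 0 1))
    (h1 : ContinuousOn (fun x : ℝ => F (z + (M * ρ') • V.e2 + (M * ρ') • (x • V.e1)))
      (Set.Icc 0 1)) :
    ((M : ℝ) ^ 2) • al2 V F (M * ρ') z =
      ∑ a ∈ range M, ∑ b ∈ range M,
        al2 V F ρ' (z + ρ' • ((a : ℝ) • V.e1 + (b : ℝ) • V.e2)) := by
  unfold al2
  rw [edge_telescope (hE V F ρ') ρ' hρ M hM z V.e2 V.e1 _ _
    (hE_split V F ρ' M hM z h0) (hE_split V F ρ' M hM _ h1)]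
  refine Finset.sum_congr rfl fun a _ => Finset.sum_congr rfl fun b _ => ?_
  rw [add_comm ((b : ℝ) • V.e2) ((a : ℝ) • V.e1)]

variable (KK : Set B) (C : ℝ)

omit [NormedSpace ℝ E] [CompleteSpace E] in
/-- a Lipschitz map along a segment in `KK` is continuous -/
theorem continuousOn_path (hF : ∀ x ∈ KK, ∀ y ∈ KK, ‖F x - F y‖ ≤ C * ‖x - y‖) (z : B) (ρ : ℝ)
    (e : B) (hz : ∀ t : ℝ, 0 ≤ t → t ≤ 1 → z + ρ • (t • e) ∈ KK) :
    ContinuousOn (fun t : ℝ => F (z + ρ • (t • e))) (Set.Icc 0 1) := by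
  have hL : LipschitzOnWith C.toNNReal F KK := by
    apply LipschitzOnWith.of_dist_le_mul
    intro x hx y hy
    rw [dist_eq_norm, dist_eq_norm]
    exact (hF x hx y hy).trans
      (mul_le_mul_of_nonneg_right (Real.le_coe_toNNReal C) (norm_nonneg _))
  refine hL.continuousOn.comp (by fun_prop) ?_
  intro t ht
  exact hz t ht.1 ht.2

theorem continuousOn_path1 (hF : ∀ x ∈ KK, ∀ y ∈ KK, ‖F x - F y‖ ≤ C * ‖x - y‖) (z : B) (ρ : ℝ)
    (hz : ∀ t : ℝ, 0 ≤ t → t ≤ 1 → z + ρ • (t • V.e1) ∈ KK) :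
    ContinuousOn (fun t : ℝ => F (z + ρ • (t • V.e1))) (Set.Icc 0 1) :=
  continuousOn_path F KK C hF z ρ V.e1 hz

theorem continuousOn_path2 (hF : ∀ x ∈ KK, ∀ y ∈ KK, ‖F x - F y‖ ≤ C * ‖x - y‖) (z : B) (ρ : ℝ)
    (hz : ∀ t : ℝ, 0 ≤ t → t ≤ 1 → z + ρ • (t • V.e2) ∈ KK) :
    ContinuousOn (fun t : ℝ => F (z + ρ • (t • V.e2))) (Set.Icc 0 1) :=
  continuousOn_path F KK C hF z ρ V.e2 hz

omit [CompleteSpace E] in
theorem edge_sub_le (hF : ∀ x ∈ KK, ∀ y ∈ KK, ‖F x - F y‖ ≤ C * ‖x - y‖) (ρ : ℝ) (p q e : B)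
    (hp : ∀ t : ℝ, 0 ≤ t → t ≤ 1 → p + ρ • (t • e) ∈ KK)
    (hq : ∀ t : ℝ, 0 ≤ t → t ≤ 1 → q + ρ • (t • e) ∈ KK) :
    ‖(∫ y in (0 : ℝ)..1, F (p + ρ • (y • e))) - ∫ y in (0 : ℝ)..1, F (q + ρ • (y • e))‖
      ≤ C * ‖p - q‖ := by
  have i1 : IntervalIntegrable (fun t : ℝ => F (p + ρ • (t • e))) MeasureTheory.volume 0 1 := by
    apply ContinuousOn.intervalIntegrable
    rw [Set.uIcc_of_le zero_le_one]
    exact continuousOn_path F KK C hF p ρ e hp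
  have i2 : IntervalIntegrable (fun t : ℝ => F (q + ρ • (t • e))) MeasureTheory.volume 0 1 := by
    apply ContinuousOn.intervalIntegrable
    rw [Set.uIcc_of_le zero_le_one]
    exact continuousOn_path F KK C hF q ρ e hq
  rw [← intervalIntegral.integral_sub i1 i2]
  have h := intervalIntegral.norm_integral_le_of_norm_le_const (a := (0 : ℝ)) (b := 1)
    (f := fun t : ℝ => F (p + ρ • (t • e)) - F (q + ρ • (t • e))) (C := C * ‖p - q‖) (by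
      intro t ht
      rw [Set.uIoc_of_le zero_le_one] at ht
      have := hF _ (hp t ht.1.le ht.2) _ (hq t ht.1.le ht.2)
      have e1 : p + ρ • (t • e) - (q + ρ • (t • e)) = p - q := by abel
      rwa [e1] at this)
  simpa using h

/-- translation changes an edge average by at most `C ‖p - q‖` -/
theorem vE_sub_le (hF : ∀ x ∈ KK, ∀ y ∈ KK, ‖F x - F y‖ ≤ C * ‖x - y‖) (ρ : ℝ) (p q : B)
    (hp : ∀ t : ℝ, 0 ≤ t → t ≤ 1 → p + ρ • (t • V.e2) ∈ KK)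
    (hq : ∀ t : ℝ, 0 ≤ t → t ≤ 1 → q + ρ • (t • V.e2) ∈ KK) :
    ‖vE V F ρ p - vE V F ρ q‖ ≤ C * ‖p - q‖ :=
  edge_sub_le F KK C hF ρ p q V.e2 hp hq

theorem hE_sub_le (hF : ∀ x ∈ KK, ∀ y ∈ KK, ‖F x - F y‖ ≤ C * ‖x - y‖) (ρ : ℝ) (p q : B)
    (hp : ∀ t : ℝ, 0 ≤ t → t ≤ 1 → p + ρ • (t • V.e1) ∈ KK)
    (hq : ∀ t : ℝ, 0 ≤ t → t ≤ 1 → q + ρ • (t • V.e1) ∈ KK) :
    ‖hE V F ρ p - hE V F ρ q‖ ≤ C * ‖p - q‖ :=
  edge_sub_le F KK C hF ρ p q V.e1 hp hq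

theorem edge_sub_F_le (hC : 0 ≤ C) (hF : ∀ x ∈ KK, ∀ y ∈ KK, ‖F x - F y‖ ≤ C * ‖x - y‖) (ρ : ℝ)
    (hρ : 0 ≤ ρ) (p e : B) (he : ‖e‖ ≤ 1)
    (hp : ∀ t : ℝ, 0 ≤ t → t ≤ 1 → p + ρ • (t • e) ∈ KK) :
    ‖(∫ y in (0 : ℝ)..1, F (p + ρ • (y • e))) - F p‖ ≤ C * ρ := by
  have i1 : IntervalIntegrable (fun t : ℝ => F (p + ρ • (t • e))) MeasureTheory.volume 0 1 := by
    apply ContinuousOn.intervalIntegrable
    rw [Set.uIcc_of_le zero_le_one]
    exact continuousOn_path F KK C hF p ρ e hp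
  have i2 : IntervalIntegrable (fun _ : ℝ => F p) MeasureTheory.volume 0 1 :=
    intervalIntegrable_const
  have hc : F p = ∫ _ in (0 : ℝ)..1, F p := by simp
  have hpK : p ∈ KK := by simpa using hp 0 le_rfl zero_le_one
  rw [hc, ← intervalIntegral.integral_sub i1 i2]
  have h := intervalIntegral.norm_integral_le_of_norm_le_const (a := (0 : ℝ)) (b := 1)
    (f := fun t : ℝ => F (p + ρ • (t • e)) - F p) (C := C * ρ) (by
      intro t ht
      rw [Set.uIoc_of_le zero_le_one] at ht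
      refine (hF _ (hp t ht.1.le ht.2) _ hpK).trans ?_
      have e1 : p + ρ • (t • e) - p = ρ • (t • e) := by abel
      rw [e1, norm_smul, norm_smul, Real.norm_of_nonneg hρ, Real.norm_of_nonneg ht.1.le]
      have : t * ‖e‖ ≤ 1 := mul_le_one₀ ht.2 (norm_nonneg _) he
      exact mul_le_mul_of_nonneg_left (mul_le_of_le_one_right hρ this) hC)
  simpa using h

/-- edge average versus value at the corner -/
theorem vE_sub_F_le (hC : 0 ≤ C) (hF : ∀ x ∈ KK, ∀ y ∈ KK, ‖F x - F y‖ ≤ C * ‖x - y‖) (ρ : ℝ)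
    (hρ : 0 ≤ ρ) (p : B) (hp : ∀ t : ℝ, 0 ≤ t → t ≤ 1 → p + ρ • (t • V.e2) ∈ KK) :
    ‖vE V F ρ p - F p‖ ≤ C * ρ :=
  edge_sub_F_le F KK C hC hF ρ hρ p V.e2 V.e2_le hp

theorem hE_sub_F_le (hC : 0 ≤ C) (hF : ∀ x ∈ KK, ∀ y ∈ KK, ‖F x - F y‖ ≤ C * ‖x - y‖) (ρ : ℝ)
    (hρ : 0 ≤ ρ) (p : B) (hp : ∀ t : ℝ, 0 ≤ t → t ≤ 1 → p + ρ • (t • V.e1) ∈ KK) :
    ‖hE V F ρ p - F p‖ ≤ C * ρ :=
  edge_sub_F_le F KK C hC hF ρ hρ p V.e1 V.e1_le hp

end Crest.Agent.LP
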