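import Crest.Agent.LP.Defs

/-! Module E2: choice of the parameters. -/

set_option autoImplicit false

namespace Crest.Agent.LP

open Finset

/-- Choice of the parameters. `η` small in terms of `c,C,m`; then, given `δ0`, first `w` large,
then `N` large (recall `h / bigM = 1/(1000 m w N)`), then `δ'`, `η'` small. -/
theorem params (C c : ℝ) (hC : 0 < C) (hc : 0 < c) (m h : ℕ) (hm : 0 < m) (hh : 0 < h) :
    ∃ η : ℝ, 0 < η ∧ η ≤ C ∧ ∀ δ0 : ℝ, 0 < δ0 → ∃ w N : ℕ, 0 < w ∧ 0 < N ∧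
      ∃ δ' η' : ℝ, 0 < δ' ∧ 0 < η' ∧ δ' ≤ δ0 / 2 ∧
      8 * C * δ' + 56 * C ^ 2 * h / (bigM m h w N : ℝ) ≤ (c / (200 * m ^ 2 * w)) ^ 2 ∧
      12 * C * (η + η') + 32 * C ^ 3 * δ' / δ0 ^ 2 + 224 * C ^ 4 / (w * δ0 ^ 2)
        + 56 * C ^ 2 * h / (bigM m h w N : ℝ) ≤ (c / (200 * m ^ 2)) ^ 2 := by
  have hmR : (0 : ℝ) < m := by exact_mod_cast hm
  have hhR : (0 : ℝ) < h := by exact_mod_cast hh
  have hm1 : (1 : ℝ) ≤ m := by exact_mod_cast hm
  set A : ℝ := (c / (200 * m ^ 2)) ^ 2 with hA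
  have hA0 : 0 < A := by positivity
  refine ⟨min C (A / (48 * C)), by positivity, min_le_left _ _, ?_⟩
  set η : ℝ := min C (A / (48 * C)) with hη
  have hη1 : 12 * C * η ≤ A / 4 := by
    have : η ≤ A / (48 * C) := min_le_right _ _
    calc 12 * C * η ≤ 12 * C * (A / (48 * C)) := by gcongr
      _ = A / 4 := by field_simp; norm_num
  intro δ0 hδ0
  obtain ⟨w, hw⟩ := exists_nat_gt (224 * 8 * C ^ 4 / (A * δ0 ^ 2))
  have hw0 : (0 : ℝ) < w := lt_of_le_of_lt (by positivity) hw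
  have hwN : 0 < w := by exact_mod_cast hw0
  have hw1 : (1 : ℝ) ≤ w := by exact_mod_cast hwN
  have hwA : 224 * C ^ 4 / (w * δ0 ^ 2) ≤ A / 8 := by
    rw [div_lt_iff₀ (by positivity)] at hw
    rw [div_le_div_iff₀ (by positivity) (by norm_num)]
    nlinarith [hw]
  set Bw : ℝ := (c / (200 * m ^ 2 * w)) ^ 2 with hBw
  have hBw0 : 0 < Bw := by positivity
  have hBA : Bw ≤ A := by
    rw [hBw, hA]
    have : c / (200 * m ^ 2 * w) ≤ c / (200 * m ^ 2) := by
      apply div_le_div_of_nonneg_left hc.le (by positivity)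
      exact le_mul_of_one_le_right (by positivity) hw1
    have h0 : 0 ≤ c / (200 * (m : ℝ) ^ 2 * w) := by positivity
    gcongr
  obtain ⟨N, hN⟩ := exists_nat_gt (56 * 8 * C ^ 2 / (1000 * Bw))
  have hN0 : (0 : ℝ) < N := lt_of_le_of_lt (by positivity) hN
  have hNN : 0 < N := by exact_mod_cast hN0
  have hNB : 56 * C ^ 2 * h / (bigM m h w N : ℝ) ≤ Bw / 8 := by
    have e : 56 * C ^ 2 * h / (bigM m h w N : ℝ) = 56 * C ^ 2 / (1000 * (m * w) * N) := by
      unfold bigM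
      push_cast
      field_simp
    rw [e]
    have h1 : 56 * C ^ 2 / (1000 * ((m : ℝ) * w) * N) ≤ 56 * C ^ 2 / (1000 * N) := by
      apply div_le_div_of_nonneg_left (by positivity) (by positivity)
      have : (1 : ℝ) ≤ (m : ℝ) * w := by nlinarith
      nlinarith
    refine h1.trans ?_
    rw [div_lt_iff₀ (by positivity)] at hN
    rw [div_le_div_iff₀ (by positivity) (by norm_num)]
    nlinarith [hN]
  set δ' : ℝ := min (δ0 / 2) (min (Bw / (16 * C)) (A * δ0 ^ 2 / (8 * (32 * C ^ 3)))) with hδ'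
  have hδ'0 : 0 < δ' := by positivity
  have hd1 : δ' ≤ δ0 / 2 := min_le_left _ _
  have hd2 : 8 * C * δ' ≤ Bw / 2 := by
    have : δ' ≤ Bw / (16 * C) := (min_le_right _ _).trans (min_le_left _ _)
    calc 8 * C * δ' ≤ 8 * C * (Bw / (16 * C)) := by gcongr
      _ = Bw / 2 := by field_simp; norm_num
  have hd3 : 32 * C ^ 3 * δ' / δ0 ^ 2 ≤ A / 8 := by
    have : δ' ≤ A * δ0 ^ 2 / (8 * (32 * C ^ 3)) := (min_le_right _ _).trans (min_le_right _ _)
    calc 32 * C ^ 3 * δ' / δ0 ^ 2 ≤ 32 * C ^ 3 * (A * δ0 ^ 2 / (8 * (32 * C ^ 3))) / δ0 ^ 2 := by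
          gcongr
      _ = A / 8 := by field_simp
  refine ⟨w, N, hwN, hNN, δ', A / (96 * C), hδ'0, by positivity, hd1, ?_, ?_⟩
  · linarith
  · have h1 : 12 * C * (η + A / (96 * C)) = 12 * C * η + A / 8 := by
      field_simp; ring
    rw [h1]
    linarith

end Crest.Agent.LP
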