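import Crest.Agent.LP.Defs
import Crest.Agent.LP.GridParams

/-! Module E: the variance estimates on the grid (pure inner product space inequality).
The choice of the parameters (`params`) is in `GridParams`. -/

set_option autoImplicit false

namespace Crest.Agent.LP

open Finset

section aux

variable {E : Type*} [NormedAddCommGroup E] [InnerProductSpace ℝ E] {ι : Type*}

theorem ge_var (s : Finset ι) (f : ι → E) (V e : E) (h : ∑ i ∈ s, f i = (s.card : ℝ) • V + e) :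
    ∑ i ∈ s, ‖f i - V‖ ^ 2 ≤ ∑ i ∈ s, ‖f i‖ ^ 2 - s.card * ‖V‖ ^ 2 + 2 * (‖e‖ * ‖V‖) := by
  have h1 : ∀ i ∈ s, ‖f i - V‖ ^ 2 = ‖f i‖ ^ 2 - 2 * inner ℝ (f i) V + ‖V‖ ^ 2 :=
    fun i _ => norm_sub_sq_real _ _
  rw [sum_congr rfl h1, sum_add_distrib, sum_sub_distrib, ← mul_sum, ← sum_inner, h,
    inner_add_left, inner_smul_left, real_inner_self_eq_norm_sq, sum_const, nsmul_eq_mul]
  have h2 : -(‖e‖ * ‖V‖) ≤ inner ℝ e V := (abs_le.1 (abs_real_inner_le_norm e V)).1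
  have h3 : (starRingEnd ℝ) (s.card : ℝ) = s.card := rfl
  rw [h3]
  linarith

theorem ge_cs (s : Finset ι) (g : ι → ℝ) (x : ℝ) (hx : 0 ≤ x)
    (h : ∑ i ∈ s, g i ^ 2 ≤ s.card * x ^ 2) : ∑ i ∈ s, g i ≤ s.card * x := by
  have h1 : (∑ i ∈ s, g i) ^ 2 ≤ s.card * ∑ i ∈ s, g i ^ 2 := sq_sum_le_card_mul_sum_sq
  have h2 : (∑ i ∈ s, g i) ^ 2 ≤ (s.card * x) ^ 2 := by
    calc (∑ i ∈ s, g i) ^ 2 ≤ s.card * ∑ i ∈ s, g i ^ 2 := h1
      _ ≤ s.card * (s.card * x ^ 2) := mul_le_mul_of_nonneg_left h (by positivity)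
      _ = (s.card * x) ^ 2 := by ring
  exact abs_le_of_sq_le_sq' h2 (by positivity) |>.2

theorem ge_sub (s : Finset ι) (f g : ι → E) (V : E) :
    ∑ i ∈ s, ‖f i - g i‖ ^ 2 ≤ 2 * ∑ i ∈ s, ‖f i - V‖ ^ 2 + 2 * ∑ i ∈ s, ‖g i - V‖ ^ 2 := by
  rw [mul_sum, mul_sum, ← sum_add_distrib]
  refine sum_le_sum fun i _ => ?_
  have h1 : ‖f i - g i‖ ≤ ‖f i - V‖ + ‖g i - V‖ := by
    have : f i - g i = (f i - V) - (g i - V) := by abel
    rw [this]
    exact norm_sub_le _ _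
  nlinarith [norm_nonneg (f i - g i), norm_nonneg (f i - V), norm_nonneg (g i - V),
    sq_nonneg (‖f i - V‖ - ‖g i - V‖)]

/-- the number of points at which `‖f‖` is small -/
theorem ge_bad (s : Finset ι) (f : ι → E) (V : E) (k1 δ0 δ' : ℝ) (hδ0 : 0 < δ0)
    (hδδ : δ' ≤ δ0 / 2) (nV : k1 - δ' ≤ ‖V‖) :
    ((s.filter fun i => ‖f i‖ < k1 - δ0).card : ℝ) * (δ0 ^ 2 / 4) ≤ ∑ i ∈ s, ‖f i - V‖ ^ 2 := by
  classical
  rw [← nsmul_eq_mul, ← sum_const]
  refine le_trans (sum_le_sum (g := fun i => ‖f i - V‖ ^ 2) fun i hi => ?_)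
    (sum_le_sum_of_subset_of_nonneg (filter_subset _ _) fun i _ _ => by positivity)
  have h1 := (mem_filter.1 hi).2
  have h2 : ‖V‖ - ‖f i‖ ≤ ‖f i - V‖ := by
    rw [norm_sub_rev]; exact norm_sub_norm_le _ _
  have h3 : δ0 / 2 ≤ ‖f i - V‖ := by linarith
  nlinarith

/-- sum of squares with a small exceptional set -/
theorem ge_sumsq (s : Finset ι) (f g : ι → E) (k1 k2 δ0 η C : ℝ) (hC : 0 ≤ C)
    (hk2η : 0 ≤ k2 + η)
    (hf : ∀ i ∈ s, ‖f i‖ ≤ C) (hg : ∀ i ∈ s, k1 - δ0 ≤ ‖g i‖ → ‖f i‖ ≤ k2 + η) :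
    ∑ i ∈ s, ‖f i‖ ^ 2 ≤ s.card * (k2 + η) ^ 2
      + ((s.filter fun i => ‖g i‖ < k1 - δ0).card : ℝ) * C ^ 2 := by
  classical
  have h1 : ∀ i ∈ s, ‖f i‖ ^ 2 ≤ (k2 + η) ^ 2 + (if ‖g i‖ < k1 - δ0 then C ^ 2 else 0) := by
    intro i hi
    split_ifs with h
    · have h2 := hf i hi
      have h3 := norm_nonneg (f i)
      have : ‖f i‖ ^ 2 ≤ C ^ 2 := by gcongr
      nlinarith [sq_nonneg (k2 + η)]
    · have h2 := hg i hi (not_lt.1 h)
      have h3 := norm_nonneg (f i)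
      rw [add_zero]
      gcongr
  refine le_trans (sum_le_sum h1) ?_
  rw [sum_add_distrib, sum_const, nsmul_eq_mul, ← sum_filter, sum_const, nsmul_eq_mul]

end aux

/-- summation over `range (K * W)` by blocks -/
theorem ge_blocks {E : Type*} [AddCommMonoid E] (f : ℕ → E) (K W : ℕ) :
    ∑ a ∈ range (K * W), f a = ∑ k ∈ range K, ∑ t ∈ range W, f (k * W + t) := by
  induction K with
  | zero => simp
  | succ K ih => rw [Nat.succ_mul, sum_range_add, ih, sum_range_succ]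

theorem grid_est {E : Type*} [NormedAddCommGroup E] [InnerProductSpace ℝ E]
    (m h w N : ℕ) (hm : 0 < m) (hh : 0 < h) (hw : 0 < w) (hN : 0 < N)
    (C c k1 k2 δ0 δ' η η' : ℝ) (hC : 0 < C) (hc : 0 < c)
    (hk1 : 0 ≤ k1) (hk1C : k1 ≤ C) (hk2 : 0 ≤ k2) (hk2C : k2 ≤ C)
    (hδ0 : 0 < δ0) (hδ' : 0 ≤ δ') (hη : 0 ≤ η) (hη' : 0 ≤ η') (hηC : η ≤ C)
    (hδδ : δ' ≤ δ0 / 2)
    (P1 : 8 * C * δ' + 56 * C ^ 2 * h / (bigM m h w N : ℝ) ≤ (c / (200 * m ^ 2 * w)) ^ 2)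
    (P2 : 12 * C * (η + η') + 32 * C ^ 3 * δ' / δ0 ^ 2 + 224 * C ^ 4 / (w * δ0 ^ 2)
        + 56 * C ^ 2 * h / (bigM m h w N : ℝ) ≤ (c / (200 * m ^ 2)) ^ 2)
    (V1 V2 : E) (be gH gV be' gV' : ℕ → ℕ → E)
    (nbe : ∀ a < bigM m h w N, ∀ b < bigM m h w N, ‖be a b‖ ≤ k1)
    (ngH : ∀ a < bigM m h w N, ∀ b < bigM m h w N, ‖gH a b‖ ≤ k1)
    (ngV : ∀ a < bigM m h w N, ∀ b < bigM m h w N, ‖gV a b‖ ≤ k1)
    (nbe' : ∀ a < bigM m h w N, ∀ b < bigM m h w N, ‖be' a b‖ ≤ C)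
    (ngV' : ∀ a < bigM m h w N, ∀ b < bigM m h w N, ‖gV' a b‖ ≤ C)
    (sbe' : ∀ a < bigM m h w N, ∀ b < bigM m h w N, k1 - δ0 ≤ ‖be a b‖ → ‖be' a b‖ ≤ k2 + η)
    (sgV' : ∀ a < bigM m h w N, ∀ b < bigM m h w N, k1 - δ0 ≤ ‖gV a b‖ → ‖gV' a b‖ ≤ k2 + η)
    (aV1 : ∑ a ∈ range (bigM m h w N), ∑ b ∈ range (bigM m h w N), be a b
      = ((bigM m h w N : ℝ) ^ 2) • V1)
    (aV2 : ∑ a ∈ range (bigM m h w N), ∑ b ∈ range (bigM m h w N), be' a b
      = ((bigM m h w N : ℝ) ^ 2) • V2)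
    (nV1 : k1 - δ' ≤ ‖V1‖) (nV2 : k2 - η' ≤ ‖V2‖)
    (tH : ∀ b < bigM m h w N, ‖∑ a ∈ range (bigM m h w N), (gH a b - be a b)‖ ≤ 14 * C * h)
    (tV : ∀ b < bigM m h w N, ∀ k < 1000 * (m * N),
      ‖∑ t ∈ range (h * w), (gV (k * (h * w) + t) b - be (k * (h * w) + t) b)‖ ≤ 14 * C * h)
    (tV' : ∀ a < bigM m h w N, ‖∑ b ∈ range (bigM m h w N), (gV' a b - be' a b)‖ ≤ 14 * C * h) :
    (∑ a ∈ range (bigM m h w N), ∑ b ∈ range (bigM m h w N), ‖gH a b - be a b‖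
        ≤ (bigM m h w N : ℝ) ^ 2 * (c / (200 * m ^ 2 * w))) ∧
    (∑ a ∈ range (bigM m h w N), ∑ b ∈ range (bigM m h w N), ‖gV' a b - be' a b‖
        ≤ (bigM m h w N : ℝ) ^ 2 * (c / (200 * m ^ 2))) := by
  classical
  have hMeq : bigM m h w N = 1000 * (m * N) * (h * w) := by unfold bigM; ring
  have hMpos : 0 < bigM m h w N := by
    rw [hMeq]; positivity
  set M : ℕ := bigM m h w N with hMdef
  have hMR : (0 : ℝ) < (M : ℝ) := by exact_mod_cast hMpos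
  have hwR : (0 : ℝ) < (w : ℝ) := by exact_mod_cast hw
  have hhR : (0 : ℝ) < (h : ℝ) := by exact_mod_cast hh
  set s : Finset (ℕ × ℕ) := range M ×ˢ range M with hs
  have hcard : (s.card : ℝ) = (M : ℝ) ^ 2 := by
    rw [hs, card_product, card_range]; push_cast; ring
  have hmem : ∀ i ∈ s, i.1 < M ∧ i.2 < M := by
    intro i hi
    rw [hs, mem_product, mem_range, mem_range] at hi
    exact hi
  set T : ℝ := (M : ℝ) ^ 2 with hT
  have hTpos : 0 < T := by positivity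
  -- norms of the averages
  have hV1k : ‖V1‖ ≤ k1 := by
    have h1 : ‖T • V1‖ ≤ T * k1 := by
      rw [← aV1, ← sum_product']
      refine le_trans (norm_sum_le _ _) ?_
      refine le_trans (sum_le_sum (g := fun _ => k1) fun i hi => ?_) ?_
      · exact nbe i.1 (hmem i hi).1 i.2 (hmem i hi).2
      · rw [sum_const, nsmul_eq_mul]
        change (s.card : ℝ) * k1 ≤ _
        rw [hcard]
    rw [norm_smul, Real.norm_of_nonneg hTpos.le] at h1
    exact le_of_mul_le_mul_left h1 hTpos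
  have hV2C : ‖V2‖ ≤ C := by
    have h1 : ‖T • V2‖ ≤ T * C := by
      rw [← aV2, ← sum_product']
      refine le_trans (norm_sum_le _ _) ?_
      refine le_trans (sum_le_sum (g := fun _ => C) fun i hi => ?_) ?_
      · exact nbe' i.1 (hmem i hi).1 i.2 (hmem i hi).2
      · rw [sum_const, nsmul_eq_mul]
        change (s.card : ℝ) * C ≤ _
        rw [hcard]
    rw [norm_smul, Real.norm_of_nonneg hTpos.le] at h1
    exact le_of_mul_le_mul_left h1 hTpos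
  have hV1C : ‖V1‖ ≤ C := hV1k.trans hk1C
  -- functions on the product
  let fbe : ℕ × ℕ → E := fun i => be i.1 i.2
  let fgH : ℕ × ℕ → E := fun i => gH i.1 i.2
  let fgV : ℕ × ℕ → E := fun i => gV i.1 i.2
  let fbe' : ℕ × ℕ → E := fun i => be' i.1 i.2
  let fgV' : ℕ × ℕ → E := fun i => gV' i.1 i.2
  have sbe : ∑ i ∈ s, fbe i = T • V1 := by
    rw [← aV1, hs, sum_product]
  have sbe2 : ∑ i ∈ s, fbe' i = T • V2 := by
    rw [← aV2, hs, sum_product]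
  -- error terms
  have eH : ‖∑ i ∈ s, (fgH i - fbe i)‖ ≤ M * (14 * C * h) := by
    rw [hs, sum_product_right]
    refine le_trans (norm_sum_le _ _) ?_
    refine le_trans (sum_le_sum (g := fun _ => 14 * C * h) fun b hb => ?_) ?_
    · exact tH b (mem_range.1 hb)
    · rw [sum_const, card_range, nsmul_eq_mul]
  have eV' : ‖∑ i ∈ s, (fgV' i - fbe' i)‖ ≤ M * (14 * C * h) := by
    rw [hs, sum_product]
    refine le_trans (norm_sum_le _ _) ?_
    refine le_trans (sum_le_sum (g := fun _ => 14 * C * h) fun a ha => ?_) ?_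
    · exact tV' a (mem_range.1 ha)
    · rw [sum_const, card_range, nsmul_eq_mul]
  have eV : ‖∑ i ∈ s, (fgV i - fbe i)‖ ≤ T * (14 * C / w) := by
    rw [hs, sum_product_right]
    refine le_trans (norm_sum_le _ _) ?_
    refine le_trans (sum_le_sum (g := fun _ => (1000 * (m * N) : ℕ) * (14 * C * h))
      fun b hb => ?_) ?_
    · rw [hMeq, ge_blocks]
      refine le_trans (norm_sum_le _ _) ?_
      refine le_trans (sum_le_sum (g := fun _ => 14 * C * h) fun k hk => ?_) ?_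
      · exact tV b (mem_range.1 hb) k (mem_range.1 hk)
      · rw [sum_const, card_range, nsmul_eq_mul]
    · rw [sum_const, card_range, nsmul_eq_mul]
      have hM' : (M : ℝ) = (1000 * (m * N) : ℕ) * (h * w) := by
        rw [hMeq]; push_cast; ring
      have : T * (14 * C / w) = M * ((1000 * (m * N) : ℕ) * (14 * C * h)) := by
        rw [hT, pow_two]
        nth_rewrite 2 [hM']
        field_simp
      rw [this]
  -- variances
  have hk : k1 ^ 2 - ‖V1‖ ^ 2 ≤ 2 * C * δ' := by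
    nlinarith [norm_nonneg V1]
  have q1 : ∑ i ∈ s, ‖fbe i - V1‖ ^ 2 ≤ T * (2 * C * δ') := by
    have h1 := ge_var s fbe V1 0 (by rw [sbe, hcard, add_zero])
    have h2 : ∑ i ∈ s, ‖fbe i‖ ^ 2 ≤ T * k1 ^ 2 := by
      refine le_trans (sum_le_sum (g := fun _ => k1 ^ 2) fun i hi => ?_) ?_
      · have := nbe i.1 (hmem i hi).1 i.2 (hmem i hi).2
        have h0 := norm_nonneg (fbe i)
        change ‖fbe i‖ ≤ k1 at this
        gcongr
      · rw [sum_const, nsmul_eq_mul, hcard]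
    rw [norm_zero, zero_mul, mul_zero, add_zero, hcard] at h1
    calc _ ≤ _ := h1
      _ ≤ T * k1 ^ 2 - T * ‖V1‖ ^ 2 := by linarith
      _ = T * (k1 ^ 2 - ‖V1‖ ^ 2) := by ring
      _ ≤ T * (2 * C * δ') := mul_le_mul_of_nonneg_left hk hTpos.le
  have gen : ∀ f : ℕ × ℕ → E, (∀ i ∈ s, ‖f i‖ ≤ k1) → ∀ x : ℝ,
      ‖∑ i ∈ s, (f i - fbe i)‖ ≤ x →
      ∑ i ∈ s, ‖f i - V1‖ ^ 2 ≤ T * (2 * C * δ') + 2 * (x * C) := by
    intro f hf x hx
    have h1 := ge_var s f V1 (∑ i ∈ s, (f i - fbe i)) (by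
      rw [sum_sub_distrib, sbe, hcard]; abel)
    have h2 : ∑ i ∈ s, ‖f i‖ ^ 2 ≤ T * k1 ^ 2 := by
      refine le_trans (sum_le_sum (g := fun _ => k1 ^ 2) fun i hi => ?_) ?_
      · have := hf i hi
        have h0 := norm_nonneg (f i)
        gcongr
      · rw [sum_const, nsmul_eq_mul, hcard]
    have h3 : ‖∑ i ∈ s, (f i - fbe i)‖ * ‖V1‖ ≤ x * C :=
      mul_le_mul hx hV1C (norm_nonneg _) (le_trans (norm_nonneg _) hx)
    have h4 : T * (k1 ^ 2 - ‖V1‖ ^ 2) ≤ T * (2 * C * δ') :=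
      mul_le_mul_of_nonneg_left hk hTpos.le
    rw [hcard] at h1
    linarith
  have q2 := gen fgH (fun i hi => ngH i.1 (hmem i hi).1 i.2 (hmem i hi).2) _ eH
  have q3 := gen fgV (fun i hi => ngV i.1 (hmem i hi).1 i.2 (hmem i hi).2) _ eV
  -- first claim
  have TM : T * (28 * C ^ 2 * h / M) = 2 * (M * (14 * C * h) * C) := by
    rw [hT]; field_simp; ring
  constructor
  · have h1 := ge_sub s fgH fbe V1
    have h2 : ∑ i ∈ s, ‖fgH i - fbe i‖ ^ 2 ≤ s.card * (c / (200 * m ^ 2 * w)) ^ 2 := by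
      rw [hcard]
      refine le_trans ?_ (mul_le_mul_of_nonneg_left P1 hTpos.le)
      have : T * (8 * C * δ' + 56 * C ^ 2 * h / (M : ℝ))
          = 8 * (T * (C * δ')) + 2 * (T * (28 * C ^ 2 * h / M)) := by ring
      rw [this, TM]
      linarith
    have h3 := ge_cs s (fun i => ‖fgH i - fbe i‖) (c / (200 * m ^ 2 * w)) (by positivity) h2
    rw [hcard, hs, sum_product] at h3
    exact h3
  · -- bad sets
    have b1 := ge_bad s fbe V1 k1 δ0 δ' hδ0 hδδ nV1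
    have b2 := ge_bad s fgV V1 k1 δ0 δ' hδ0 hδδ nV1
    have hk2' : (k2 + η) ^ 2 - ‖V2‖ ^ 2 ≤ 3 * C * (η + η') := by
      have h1 : k2 ^ 2 - 2 * k2 * η' ≤ ‖V2‖ ^ 2 := by
        rcases le_or_gt η' k2 with h | h
        · nlinarith [norm_nonneg V2]
        · nlinarith [norm_nonneg V2]
      nlinarith
    -- variance of `f'` given the bad set bound
    have gen' : ∀ f g : ℕ × ℕ → E, (∀ i ∈ s, ‖f i‖ ≤ C) →
        (∀ i ∈ s, k1 - δ0 ≤ ‖g i‖ → ‖f i‖ ≤ k2 + η) → ∀ x y : ℝ,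
        ‖∑ i ∈ s, (f i - fbe' i)‖ ≤ x →
        ((s.filter fun i => ‖g i‖ < k1 - δ0).card : ℝ) * (δ0 ^ 2 / 4) ≤ y →
        ∑ i ∈ s, ‖f i - V2‖ ^ 2 ≤ T * (3 * C * (η + η')) + 4 * y / δ0 ^ 2 * C ^ 2
          + 2 * (x * C) := by
      intro f g hf hg x y hx hy
      have h1 := ge_var s f V2 (∑ i ∈ s, (f i - fbe' i)) (by
        rw [sum_sub_distrib, sbe2, hcard]; abel)
      have h2 := ge_sumsq s f g k1 k2 δ0 η C hC.le (by linarith) hf hg
      have h3 : ‖∑ i ∈ s, (f i - fbe' i)‖ * ‖V2‖ ≤ x * C :=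
        mul_le_mul hx hV2C (norm_nonneg _) (le_trans (norm_nonneg _) hx)
      have h4 : T * ((k2 + η) ^ 2 - ‖V2‖ ^ 2) ≤ T * (3 * C * (η + η')) :=
        mul_le_mul_of_nonneg_left hk2' hTpos.le
      have h5 : ((s.filter fun i => ‖g i‖ < k1 - δ0).card : ℝ) ≤ 4 * y / δ0 ^ 2 := by
        rw [le_div_iff₀ (by positivity)]
        linarith
      have h6 := mul_le_mul_of_nonneg_right h5 (sq_nonneg C)
      rw [hcard] at h1 h2
      linarith
    have q4 := gen' fgV' fgV (fun i hi => ngV' i.1 (hmem i hi).1 i.2 (hmem i hi).2)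
      (fun i hi => sgV' i.1 (hmem i hi).1 i.2 (hmem i hi).2) _ _ eV' (b2.trans q3)
    have q5 := gen' fbe' fbe (fun i hi => nbe' i.1 (hmem i hi).1 i.2 (hmem i hi).2)
      (fun i hi => sbe' i.1 (hmem i hi).1 i.2 (hmem i hi).2) 0 _ (by simp) (b1.trans q1)
    have h1 := ge_sub s fgV' fbe' V2
    have h2 : ∑ i ∈ s, ‖fgV' i - fbe' i‖ ^ 2 ≤ s.card * (c / (200 * m ^ 2)) ^ 2 := by
      rw [hcard]
      refine le_trans ?_ (mul_le_mul_of_nonneg_left P2 hTpos.le)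
      have e1 : T * (12 * C * (η + η') + 32 * C ^ 3 * δ' / δ0 ^ 2 + 224 * C ^ 4 / (w * δ0 ^ 2)
          + 56 * C ^ 2 * h / (M : ℝ))
          = 2 * (T * (3 * C * (η + η'))
            + 4 * (T * (2 * C * δ') + 2 * (T * (14 * C / w) * C)) / δ0 ^ 2 * C ^ 2
            + T * (28 * C ^ 2 * h / M))
            + 2 * (T * (3 * C * (η + η')) + 4 * (T * (2 * C * δ')) / δ0 ^ 2 * C ^ 2) := by
        field_simp
        ring
      rw [e1, TM]
      linarith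
    have h3 := ge_cs s (fun i => ‖fgV' i - fbe' i‖) (c / (200 * m ^ 2)) (by positivity) h2
    rw [hcard, hs, sum_product] at h3
    exact h3

end Crest.Agent.LP
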