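import Crest.Agent.LP.Defs

/-! Module G1: selection of an almost extremal corner, packing (S0392). -/

set_option autoImplicit false

namespace Crest.Agent.LP

open Finset

/-- PROOF. `k1 = sSup (range p)`, `k2 = sSup {t | ∀ δ > 0, ∃ s, k1 - δ ≤ p s ∧ t ≤ q s}` (contains `0`, bounded
by `C`). -/
theorem select {ι : Type*} [Nonempty ι] (p q : ι → ℝ) (C : ℝ) (hp0 : ∀ s, 0 ≤ p s)
    (hpC : ∀ s, p s ≤ C) (hq0 : ∀ s, 0 ≤ q s) (hqC : ∀ s, q s ≤ C) :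
    ∃ k1 k2 : ℝ, 0 ≤ k1 ∧ k1 ≤ C ∧ 0 ≤ k2 ∧ k2 ≤ C ∧ (∀ s, p s ≤ k1) ∧
      (∀ δ > 0, ∀ ε > 0, ∃ s, k1 - δ ≤ p s ∧ k2 - ε ≤ q s) ∧
      (∀ η > 0, ∃ δ0 > 0, ∀ s, k1 - δ0 ≤ p s → q s ≤ k2 + η) := by
  classical
  have hne : (Set.range p).Nonempty := Set.range_nonempty p
  have hbdd : BddAbove (Set.range p) := ⟨C, by rintro _ ⟨s, rfl⟩; exact hpC s⟩
  set k1 : ℝ := sSup (Set.range p) with hk1
  have hpk : ∀ s, p s ≤ k1 := fun s => le_csSup hbdd ⟨s, rfl⟩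
  have hk1C : k1 ≤ C := csSup_le hne (by rintro _ ⟨s, rfl⟩; exact hpC s)
  have hk10 : 0 ≤ k1 := by
    obtain ⟨s⟩ := (inferInstance : Nonempty ι)
    exact (hp0 s).trans (hpk s)
  have hnear : ∀ δ > 0, ∃ s, k1 - δ ≤ p s := by
    intro δ hδ
    obtain ⟨_, ⟨s, rfl⟩, hs⟩ := exists_lt_of_lt_csSup hne (show k1 - δ < sSup (Set.range p) by
      rw [← hk1]; linarith)
    exact ⟨s, hs.le⟩
  set T : Set ℝ := {t | ∀ δ > 0, ∃ s, k1 - δ ≤ p s ∧ t ≤ q s} with hT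
  have h0T : (0 : ℝ) ∈ T := by
    intro δ hδ
    obtain ⟨s, hs⟩ := hnear δ hδ
    exact ⟨s, hs, hq0 s⟩
  have hTC : ∀ t ∈ T, t ≤ C := by
    intro t ht
    obtain ⟨s, -, hs⟩ := ht 1 one_pos
    exact hs.trans (hqC s)
  have hTb : BddAbove T := ⟨C, hTC⟩
  set k2 : ℝ := sSup T with hk2
  refine ⟨k1, k2, hk10, hk1C, le_csSup hTb h0T, csSup_le ⟨0, h0T⟩ hTC, hpk, ?_, ?_⟩
  · intro δ hδ ε hε
    obtain ⟨t, htT, ht⟩ := exists_lt_of_lt_csSup ⟨0, h0T⟩ (show k2 - ε < sSup T by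
      rw [← hk2]; linarith)
    obtain ⟨s, hs1, hs2⟩ := htT δ hδ
    exact ⟨s, hs1, ht.le.trans hs2⟩
  · intro η hη
    by_contra hcon
    push Not at hcon
    have hmem : k2 + η ∈ T := by
      intro δ hδ
      obtain ⟨s, hs1, hs2⟩ := hcon δ hδ
      exact ⟨s, hs1, hs2.le⟩
    have := le_csSup hTb hmem
    rw [← hk2] at this
    linarith

/-- packing in a finite-dimensional space (compactness of the closed ball) -/
theorem packing {E : Type*} [NormedAddCommGroup E] [NormedSpace ℝ E] [FiniteDimensional ℝ E]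
    (R ε : ℝ) (hε : 0 < ε) :
    ∃ m : ℕ, 0 < m ∧ ∀ d : ℕ → E, (∀ i < m, ‖d i‖ ≤ R) →
      ∃ i < m, ∃ j < m, i ≠ j ∧ ‖d i - d j‖ < ε := by
  classical
  have : ProperSpace E := FiniteDimensional.proper ℝ E
  have hcomp : IsCompact (Metric.closedBall (0 : E) R) := isCompact_closedBall 0 R
  obtain ⟨t, -, htf, htc⟩ := hcomp.finite_cover_balls (half_pos hε)
  refine ⟨htf.toFinset.card + 1, Nat.succ_pos _, ?_⟩
  intro d hd
  have hch : ∀ i ∈ range (htf.toFinset.card + 1), ∃ x ∈ htf.toFinset, d i ∈ Metric.ball x (ε / 2) := by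
    intro i hi
    have h1 : d i ∈ Metric.closedBall (0 : E) R := by
      simpa [Metric.mem_closedBall, dist_zero_right] using hd i (Finset.mem_range.mp hi)
    have h2 := htc h1
    simp only [Set.mem_iUnion] at h2
    obtain ⟨x, hx, hxd⟩ := h2
    exact ⟨x, htf.mem_toFinset.mpr hx, hxd⟩
  choose! f hf1 hf2 using hch
  obtain ⟨i, hi, j, hj, hij, hfij⟩ := Finset.exists_ne_map_eq_of_card_lt_of_maps_to
    (s := range (htf.toFinset.card + 1)) (t := htf.toFinset) (by simp) (f := f) hf1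
  refine ⟨i, Finset.mem_range.mp hi, j, Finset.mem_range.mp hj, hij, ?_⟩
  have h1 := hf2 i hi
  have h2 := hf2 j hj
  rw [← hfij] at h2
  rw [Metric.mem_ball] at h1 h2
  calc ‖d i - d j‖ = dist (d i) (d j) := (dist_eq_norm _ _).symm
    _ ≤ dist (d i) (f i) + dist (f i) (d j) := dist_triangle _ _ _
    _ < ε / 2 + ε / 2 := by
        rw [dist_comm (f i) (d j)]
        linarith
    _ = ε := by ring

end Crest.Agent.LP
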