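import Crest.Agent.LP.Defs
import Crest.Agent.LP.Compact
import Crest.Agent.LP.Edge
import Crest.Agent.LP.Select1

/-! Module G: selection of an almost extremal corner, inheritance, packing. -/

set_option autoImplicit false

namespace Crest.Agent.LP

open Finset

variable {B : Type*} [NormedAddCommGroup B] [NormedSpace ℝ B] [CompleteSpace B] (S : Sys) (V : Vec B)
variable {E : Type*} [NormedAddCommGroup E] [NormedSpace ℝ E] [CompleteSpace E] (F : B → E) (C : ℝ)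

/-- base child corners -/
theorem Corner.base {n : ℕ} {z : B} (hz : Corner S V n z) (a b : ℕ) (ha : a < S.M n)
    (hb : b < S.M n) :
    Corner S V (n + 1) (z + S.r (n + 1) • ((a : ℝ) • V.e1 + (b : ℝ) • V.e2)) := by
  have h := Corner.step (S := S) (V := V) n z a b 0 ha hb hz
  have e : dig S V n a b 0 = (a : ℝ) • V.e1 + (b : ℝ) • V.e2 := by
    simp [dig, X]
  rwa [e] at h

theorem tile_mem_v {n : ℕ} {z : B} (hz : Corner S V n z) (t : ℝ) (h0 : 0 ≤ t) (h1 : t ≤ 1) :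
    z + S.r n • (t • V.e2) ∈ K S V := by
  have := tile_mem S V n z hz 0 t le_rfl zero_le_one h0 h1
  simpa using this

theorem tile_mem_h {n : ℕ} {z : B} (hz : Corner S V n z) (t : ℝ) (h0 : 0 ≤ t) (h1 : t ≤ 1) :
    z + S.r n • (t • V.e1) ∈ K S V := by
  have := tile_mem S V n z hz t 0 h0 h1 le_rfl zero_le_one
  simpa using this

theorem tile_mem_v1 {n : ℕ} {z : B} (hz : Corner S V n z) (t : ℝ) (h0 : 0 ≤ t) (h1 : t ≤ 1) :
    z + S.r n • V.e1 + S.r n • (t • V.e2) ∈ K S V := by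
  have := tile_mem S V n z hz 1 t zero_le_one le_rfl h0 h1
  simpa [smul_add, add_assoc] using this

theorem tile_mem_h1 {n : ℕ} {z : B} (hz : Corner S V n z) (t : ℝ) (h0 : 0 ≤ t) (h1 : t ≤ 1) :
    z + S.r n • V.e2 + S.r n • (t • V.e1) ∈ K S V := by
  have := tile_mem S V n z hz t 1 h0 h1 zero_le_one le_rfl
  rw [one_smul, smul_add] at this
  rw [add_assoc, add_comm (S.r n • V.e2)]
  exact this

/-- `‖al1‖ ≤ C` on corners (`vE_sub_le`, `tile_mem`) -/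
theorem al1_le (hC : 0 ≤ C) (hF : ∀ x ∈ K S V, ∀ y ∈ K S V, ‖F x - F y‖ ≤ C * ‖x - y‖)
    (n : ℕ) (z : B) (hz : Corner S V n z) : ‖al1 V F (S.r n) z‖ ≤ C := by
  have hr := S.r_pos n
  have h1 := vE_sub_le V F (K S V) C hF (S.r n) (z + S.r n • V.e1) z
    (fun t h0 h1 => tile_mem_v1 S V hz t h0 h1) (fun t h0 h1 => tile_mem_v S V hz t h0 h1)
  have h2 : ‖z + S.r n • V.e1 - z‖ ≤ S.r n := by
    rw [add_sub_cancel_left, norm_smul, Real.norm_of_nonneg hr.le]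
    calc S.r n * ‖V.e1‖ ≤ S.r n * 1 := by gcongr; exact V.e1_le
      _ = S.r n := mul_one _
  rw [al1, norm_smul, norm_inv, Real.norm_of_nonneg hr.le]
  rw [inv_mul_le_iff₀ hr]
  calc ‖vE V F (S.r n) (z + S.r n • V.e1) - vE V F (S.r n) z‖ ≤ C * ‖z + S.r n • V.e1 - z‖ := h1
    _ ≤ C * S.r n := by gcongr
    _ = S.r n * C := mul_comm _ _

theorem al2_le (hC : 0 ≤ C) (hF : ∀ x ∈ K S V, ∀ y ∈ K S V, ‖F x - F y‖ ≤ C * ‖x - y‖)
    (n : ℕ) (z : B) (hz : Corner S V n z) : ‖al2 V F (S.r n) z‖ ≤ C := by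
  have hr := S.r_pos n
  have h1 := hE_sub_le V F (K S V) C hF (S.r n) (z + S.r n • V.e2) z
    (fun t h0 h1 => tile_mem_h1 S V hz t h0 h1) (fun t h0 h1 => tile_mem_h S V hz t h0 h1)
  have h2 : ‖z + S.r n • V.e2 - z‖ ≤ S.r n := by
    rw [add_sub_cancel_left, norm_smul, Real.norm_of_nonneg hr.le]
    calc S.r n * ‖V.e2‖ ≤ S.r n * 1 := by gcongr; exact V.e2_le
      _ = S.r n := mul_one _
  rw [al2, norm_smul, norm_inv, Real.norm_of_nonneg hr.le]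
  rw [inv_mul_le_iff₀ hr]
  calc ‖hE V F (S.r n) (z + S.r n • V.e2) - hE V F (S.r n) z‖ ≤ C * ‖z + S.r n • V.e2 - z‖ := h1
    _ ≤ C * S.r n := by gcongr
    _ = S.r n * C := mul_comm _ _

/-- averaging over the `M²` base children (`s = 0`), from `al1_avg` with `ρ' = r (n+1)` -/
theorem al1_children (hF : ∀ x ∈ K S V, ∀ y ∈ K S V, ‖F x - F y‖ ≤ C * ‖x - y‖)
    (n : ℕ) (z : B) (hz : Corner S V n z) :
    ((S.M n : ℝ) ^ 2) • al1 V F (S.r n) z =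
      ∑ a ∈ range (S.M n), ∑ b ∈ range (S.M n),
        al1 V F (S.r (n + 1)) (z + S.r (n + 1) • ((a : ℝ) • V.e1 + (b : ℝ) • V.e2)) := by
  have h := al1_avg V F (S.r (n + 1)) (S.r_pos (n + 1)) (S.M n) (S.M_pos n) z ?_ ?_
  · rwa [S.M_mul_r] at h
  · rw [S.M_mul_r]
    exact continuousOn_path2 V F (K S V) C hF z (S.r n) (fun t h0 h1 => tile_mem_v S V hz t h0 h1)
  · rw [S.M_mul_r]
    exact continuousOn_path2 V F (K S V) C hF (z + S.r n • V.e1) (S.r n)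
      (fun t h0 h1 => tile_mem_v1 S V hz t h0 h1)

theorem al2_children (hF : ∀ x ∈ K S V, ∀ y ∈ K S V, ‖F x - F y‖ ≤ C * ‖x - y‖)
    (n : ℕ) (z : B) (hz : Corner S V n z) :
    ((S.M n : ℝ) ^ 2) • al2 V F (S.r n) z =
      ∑ a ∈ range (S.M n), ∑ b ∈ range (S.M n),
        al2 V F (S.r (n + 1)) (z + S.r (n + 1) • ((a : ℝ) • V.e1 + (b : ℝ) • V.e2)) := by
  have h := al2_avg V F (S.r (n + 1)) (S.r_pos (n + 1)) (S.M n) (S.M_pos n) z ?_ ?_
  · rwa [S.M_mul_r] at h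
  · rw [S.M_mul_r]
    exact continuousOn_path1 V F (K S V) C hF z (S.r n) (fun t h0 h1 => tile_mem_h S V hz t h0 h1)
  · rw [S.M_mul_r]
    exact continuousOn_path1 V F (K S V) C hF (z + S.r n • V.e2) (S.r n)
      (fun t h0 h1 => tile_mem_h1 S V hz t h0 h1)

theorem inherit_step (hF : ∀ x ∈ K S V, ∀ y ∈ K S V, ‖F x - F y‖ ≤ C * ‖x - y‖)
    (lam : ℝ) (hlam : 0 ≤ lam) (n : ℕ) (z : B) (hz : Corner S V n z) :
    ∃ z' : B, Corner S V (n + 1) z' ∧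
      ‖al2 V F (S.r n) z‖ + lam * ‖al1 V F (S.r n) z‖ ≤
        ‖al2 V F (S.r (n + 1)) z'‖ + lam * ‖al1 V F (S.r (n + 1)) z'‖ := by
  set val : ℝ := ‖al2 V F (S.r n) z‖ + lam * ‖al1 V F (S.r n) z‖ with hval
  let ch : ℕ × ℕ → B := fun p => z + S.r (n + 1) • ((p.1 : ℝ) • V.e1 + (p.2 : ℝ) • V.e2)
  let g : ℕ × ℕ → ℝ := fun p => ‖al2 V F (S.r (n + 1)) (ch p)‖ +
    lam * ‖al1 V F (S.r (n + 1)) (ch p)‖
  have hM := S.M_posR n
  have h1 : ((S.M n : ℝ) ^ 2) * ‖al1 V F (S.r n) z‖ ≤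
      ∑ p ∈ range (S.M n) ×ˢ range (S.M n), ‖al1 V F (S.r (n + 1)) (ch p)‖ := by
    have e := congrArg norm (al1_children S V F C hF n z hz)
    rw [norm_smul, Real.norm_of_nonneg (by positivity)] at e
    rw [e, ← Finset.sum_product']
    exact norm_sum_le _ _
  have h2 : ((S.M n : ℝ) ^ 2) * ‖al2 V F (S.r n) z‖ ≤
      ∑ p ∈ range (S.M n) ×ˢ range (S.M n), ‖al2 V F (S.r (n + 1)) (ch p)‖ := by
    have e := congrArg norm (al2_children S V F C hF n z hz)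
    rw [norm_smul, Real.norm_of_nonneg (by positivity)] at e
    rw [e, ← Finset.sum_product']
    exact norm_sum_le _ _
  have h3 : ∑ _p ∈ range (S.M n) ×ˢ range (S.M n), val ≤
      ∑ p ∈ range (S.M n) ×ˢ range (S.M n), g p := by
    rw [Finset.sum_const, nsmul_eq_mul, Finset.card_product, Finset.card_range]
    have h4 : ∑ p ∈ range (S.M n) ×ˢ range (S.M n), g p =
        ∑ p ∈ range (S.M n) ×ˢ range (S.M n), ‖al2 V F (S.r (n + 1)) (ch p)‖ +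
        lam * ∑ p ∈ range (S.M n) ×ˢ range (S.M n), ‖al1 V F (S.r (n + 1)) (ch p)‖ := by
      rw [Finset.mul_sum, ← Finset.sum_add_distrib]
    rw [h4, hval]
    push_cast
    have h5 := mul_le_mul_of_nonneg_left h1 hlam
    nlinarith [h2, h5]
  have hne : (range (S.M n) ×ˢ range (S.M n)).Nonempty := by
    refine ⟨(0, 0), ?_⟩
    simp [S.M_pos n]
  obtain ⟨p, hp, hle⟩ := Finset.exists_le_of_sum_le hne h3
  rw [Finset.mem_product, Finset.mem_range, Finset.mem_range] at hp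
  exact ⟨ch p, Corner.base S V hz p.1 p.2 hp.1 hp.2, hle⟩

/-- inheritance: `‖al2‖ + lam ‖al1‖` does not decrease along a suitable descendant, at every level.
PROOF. One step: by `al1_children`, `al2_children` and the triangle inequality the average of
`‖al2‖ + lam‖al1‖` over the base children (which are corners of generation `n+1`) is at least the value at the corner. -/
theorem inherit (hF : ∀ x ∈ K S V, ∀ y ∈ K S V, ‖F x - F y‖ ≤ C * ‖x - y‖)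
    (lam : ℝ) (hlam : 0 ≤ lam) (n : ℕ) (z : B) (hz : Corner S V n z) (l : ℕ) (hl : n ≤ l) :
    ∃ z' : B, Corner S V l z' ∧
      ‖al2 V F (S.r n) z‖ + lam * ‖al1 V F (S.r n) z‖ ≤
        ‖al2 V F (S.r l) z'‖ + lam * ‖al1 V F (S.r l) z'‖ := by
  induction l, hl using Nat.le_induction with
  | base => exact ⟨z, hz, le_rfl⟩
  | succ l hl ih =>
    obtain ⟨z', hz', hle⟩ := ih
    obtain ⟨z'', hz'', hle'⟩ := inherit_step S V F C hF lam hlam l z' hz'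
    exact ⟨z'', hz'', hle.trans hle'⟩

/-- PROOF. `select` on the nonempty type of corners `{x : ℕ × B // Corner S V x.1 x.2}` with
`p = ‖al1‖`, `q = ‖al2‖`.  For the third clause: `lam = (2C + η')/δ'`, `δ1 = min (δ'/2) (η'/(2 lam))`,
take a corner `τ` with `‖al1‖ ≥ k1 - δ1`, `‖al2‖ ≥ k2 - η'/2`, then a level `l ≥ level τ` with the
prescribed type (`S.often`) and the descendant of `inherit`:
`‖al2‖ ≥ k2 - η'/2 - lam δ1 ≥ k2 - η'`, and
`lam ‖al1‖ ≥ lam k1 + k2 - C - η'/2 - lam δ1` so `‖al1‖ ≥ k1 - (C+η'/2)/lam - δ1 ≥ k1 - δ'`. -/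
theorem exists_good (hC : 0 < C) (hF : ∀ x ∈ K S V, ∀ y ∈ K S V, ‖F x - F y‖ ≤ C * ‖x - y‖) :
    ∃ k1 k2 : ℝ, 0 ≤ k1 ∧ k1 ≤ C ∧ 0 ≤ k2 ∧ k2 ≤ C ∧
      (∀ n z, Corner S V n z → ‖al1 V F (S.r n) z‖ ≤ k1) ∧
      (∀ η > 0, ∃ δ0 > 0, ∀ n z, Corner S V n z → k1 - δ0 ≤ ‖al1 V F (S.r n) z‖ →
        ‖al2 V F (S.r n) z‖ ≤ k2 + η) ∧
      (∀ δ' > 0, ∀ η' > 0, ∀ m h w N : ℕ, 0 < m → 0 < h → 0 < w → 0 < N →
        ∃ n z, Corner S V n z ∧ S.m n = m ∧ S.h n = h ∧ S.w n = w ∧ S.N n = N ∧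
          k1 - δ' ≤ ‖al1 V F (S.r n) z‖ ∧ k2 - η' ≤ ‖al2 V F (S.r n) z‖) := by
  haveI : Nonempty {x : ℕ × B // Corner S V x.1 x.2} := ⟨⟨(0, 0), Corner.zero⟩⟩
  obtain ⟨k1, k2, h1, h2, h3, h4, h5, h6, h7⟩ := select
    (fun x : {x : ℕ × B // Corner S V x.1 x.2} => ‖al1 V F (S.r x.1.1) x.1.2‖)
    (fun x => ‖al2 V F (S.r x.1.1) x.1.2‖) C (fun _ => norm_nonneg _)
    (fun x => al1_le S V F C hC.le hF _ _ x.2) (fun _ => norm_nonneg _)
    (fun x => al2_le S V F C hC.le hF _ _ x.2)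
  refine ⟨k1, k2, h1, h2, h3, h4, fun n z hz => h5 ⟨(n, z), hz⟩, ?_, ?_⟩
  · intro η hη
    obtain ⟨δ0, hδ0, h⟩ := h7 η hη
    exact ⟨δ0, hδ0, fun n z hz => h ⟨(n, z), hz⟩⟩
  · intro δ' hδ' η' hη' m h w N hm hh hw hN
    set lam : ℝ := (2 * C + η') / δ' with hlam
    have hlam0 : 0 < lam := by positivity
    set δ1 : ℝ := min (δ' / 2) (η' / (2 * lam)) with hδ1
    have hδ10 : 0 < δ1 := by positivity
    have hδ1a : δ1 ≤ δ' / 2 := min_le_left _ _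
    have hδ1b : lam * δ1 ≤ η' / 2 := by
      have : δ1 ≤ η' / (2 * lam) := min_le_right _ _
      calc lam * δ1 ≤ lam * (η' / (2 * lam)) := by gcongr
        _ = η' / 2 := by field_simp
    obtain ⟨⟨⟨n0, z0⟩, hz0⟩, ha, hb⟩ := h6 δ1 hδ10 (η' / 2) (by positivity)
    simp only at ha hb hz0
    obtain ⟨l, hl, e1, e2, e3, e4⟩ := S.often m h w N hm hh hw hN n0
    obtain ⟨z', hz', hle⟩ := inherit S V F C hF lam hlam0.le n0 z0 hz0 l hl
    refine ⟨l, z', hz', e1, e2, e3, e4, ?_, ?_⟩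
    · have hq : ‖al2 V F (S.r l) z'‖ ≤ C := al2_le S V F C hC.le hF l z' hz'
      have h8 : lam * k1 - lam * δ1 ≤ lam * ‖al1 V F (S.r n0) z0‖ := by
        rw [← mul_sub]; gcongr
      have h9 : lam * ‖al1 V F (S.r l) z'‖ ≥ lam * k1 - C - η' := by linarith
      have h10 : lam * δ' = 2 * C + η' := by rw [hlam]; field_simp
      have h11 : lam * (k1 - δ') ≤ lam * ‖al1 V F (S.r l) z'‖ := by
        rw [mul_sub, h10]; linarith
      exact le_of_mul_le_mul_left h11 hlam0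
    · have hp : ‖al1 V F (S.r l) z'‖ ≤ k1 := h5 ⟨(l, z'), hz'⟩
      have h8 : lam * k1 - lam * δ1 ≤ lam * ‖al1 V F (S.r n0) z0‖ := by
        rw [← mul_sub]; gcongr
      have h9 : lam * ‖al1 V F (S.r l) z'‖ ≤ lam * k1 := by gcongr
      linarith

end Crest.Agent.LP
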