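import Crest.Agent.LP.Defs
import Crest.Agent.LP.Compact
import Crest.Agent.LP.Edge
import Crest.Agent.LP.GridEst
import Crest.Agent.LP.Cell
import Crest.Agent.LP.Select

set_option autoImplicit false
set_option linter.unusedSectionVars false

namespace Crest.Agent.LP

open Finset

section geom

variable {B : Type*} [NormedAddCommGroup B] [NormedSpace ℝ B] (S : Sys) (V : Vec B)

/-- base points of the grid in the tile `(n,z)` -/
noncomputable def gP (n : ℕ) (z : B) (a b : ℕ) : B :=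
  z + S.r (n + 1) • ((a : ℝ) • V.e1 + (b : ℝ) • V.e2)

/-- shifted points of the grid -/
noncomputable def gQ (n : ℕ) (z : B) (i a b : ℕ) : B :=
  gP S V n z a b + S.r (n + 1) • ((S.h n : ℝ) • V.v i)

theorem gP_succ_left (n : ℕ) (z : B) (a b : ℕ) :
    gP S V n z (a + 1) b = gP S V n z a b + S.r (n + 1) • V.e1 := by
  unfold gP; push_cast; module

theorem gP_succ_right (n : ℕ) (z : B) (a b : ℕ) :
    gP S V n z a (b + 1) = gP S V n z a b + S.r (n + 1) • V.e2 := by
  unfold gP; push_cast; module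

theorem gQ_succ_left (n : ℕ) (z : B) (i a b : ℕ) :
    gQ S V n z i (a + 1) b = gQ S V n z i a b + S.r (n + 1) • V.e1 := by
  unfold gQ; rw [gP_succ_left]; module

theorem gQ_succ_right (n : ℕ) (z : B) (i a b : ℕ) :
    gQ S V n z i a (b + 1) = gQ S V n z i a b + S.r (n + 1) • V.e2 := by
  unfold gQ; rw [gP_succ_right]; module

theorem corner_gP (n : ℕ) (z : B) (hz : Corner S V n z) (a b : ℕ) (ha : a < S.M n)
    (hb : b < S.M n) : Corner S V (n + 1) (gP S V n z a b) := by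
  have := Corner.step (S := S) (V := V) n z a b 0 ha hb hz
  simpa [gP, dig, X] using this

theorem corner_gQ_col (n : ℕ) (z : B) (hz : Corner S V n z) (a b : ℕ) (ha : a < S.M n)
    (hb : b < S.M n) : Corner S V (n + 1) (gQ S V n z (S.col n a) a b) := by
  have := Corner.step (S := S) (V := V) n z a b 1 ha hb hz
  have h2 : gQ S V n z (S.col n a) a b = z + S.r (n + 1) • dig S V n a b 1 := by
    simp [gQ, gP, dig, X, smul_add, add_assoc]
  rw [h2]; exact this

theorem corner_gQ_row (n : ℕ) (z : B) (hz : Corner S V n z) (a b : ℕ) (ha : a < S.M n)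
    (hb : b < S.M n) : Corner S V (n + 1) (gQ S V n z (S.row n b) a b) := by
  have := Corner.step (S := S) (V := V) n z a b 2 ha hb hz
  have h2 : gQ S V n z (S.row n b) a b = z + S.r (n + 1) • dig S V n a b 2 := by
    simp [gQ, gP, dig, X, smul_add, add_assoc]
  rw [h2]; exact this

/-- left edge -/
theorem edge_left [CompleteSpace B] (n : ℕ) (x : B) (hx : Corner S V n x) (t : ℝ) (h0 : 0 ≤ t)
    (h1 : t ≤ 1) : x + S.r n • (t • V.e2) ∈ K S V := by
  have := tile_mem S V n x hx 0 t le_rfl zero_le_one h0 h1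
  simpa using this

theorem edge_right [CompleteSpace B] (n : ℕ) (x : B) (hx : Corner S V n x) (t : ℝ) (h0 : 0 ≤ t)
    (h1 : t ≤ 1) : x + S.r n • V.e1 + S.r n • (t • V.e2) ∈ K S V := by
  have := tile_mem S V n x hx 1 t zero_le_one le_rfl h0 h1
  simpa [smul_add, add_assoc] using this

theorem edge_bot [CompleteSpace B] (n : ℕ) (x : B) (hx : Corner S V n x) (t : ℝ) (h0 : 0 ≤ t)
    (h1 : t ≤ 1) : x + S.r n • (t • V.e1) ∈ K S V := by
  have := tile_mem S V n x hx t 0 h0 h1 le_rfl zero_le_one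
  simpa using this

theorem edge_top [CompleteSpace B] (n : ℕ) (x : B) (hx : Corner S V n x) (t : ℝ) (h0 : 0 ≤ t)
    (h1 : t ≤ 1) : x + S.r n • V.e2 + S.r n • (t • V.e1) ∈ K S V := by
  have := tile_mem S V n x hx t 1 h0 h1 zero_le_one le_rfl
  have h2 : x + S.r n • V.e2 + S.r n • (t • V.e1) = x + S.r n • (t • V.e1 + (1 : ℝ) • V.e2) := by
    module
  rw [h2]; exact this

theorem corner_mem [CompleteSpace B] (n : ℕ) (x : B) (hx : Corner S V n x) : x ∈ K S V := by
  have := tile_mem S V n x hx 0 0 le_rfl zero_le_one le_rfl zero_le_one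
  simpa using this

/-- vertical edge (left edge of the grid line `a ≤ M`) -/
theorem vedge_P [CompleteSpace B] (n : ℕ) (z : B) (hz : Corner S V n z) (a b : ℕ) (ha : a ≤ S.M n)
    (hb : b < S.M n) (t : ℝ) (h0 : 0 ≤ t) (h1 : t ≤ 1) :
    gP S V n z a b + S.r (n + 1) • (t • V.e2) ∈ K S V := by
  rcases Nat.lt_or_ge a (S.M n) with h | h
  · exact edge_left S V (n + 1) _ (corner_gP S V n z hz a b h hb) t h0 h1
  · obtain ⟨a', rfl⟩ : ∃ a', a = a' + 1 := ⟨a - 1, by have := S.M_pos n; omega⟩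
    rw [gP_succ_left]
    exact edge_right S V (n + 1) _ (corner_gP S V n z hz a' b (by omega) hb) t h0 h1

theorem hedge_P [CompleteSpace B] (n : ℕ) (z : B) (hz : Corner S V n z) (a b : ℕ) (ha : a < S.M n)
    (hb : b ≤ S.M n) (t : ℝ) (h0 : 0 ≤ t) (h1 : t ≤ 1) :
    gP S V n z a b + S.r (n + 1) • (t • V.e1) ∈ K S V := by
  rcases Nat.lt_or_ge b (S.M n) with h | h
  · exact edge_bot S V (n + 1) _ (corner_gP S V n z hz a b ha h) t h0 h1
  · obtain ⟨b', rfl⟩ : ∃ b', b = b' + 1 := ⟨b - 1, by have := S.M_pos n; omega⟩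
    rw [gP_succ_right]
    exact edge_top S V (n + 1) _ (corner_gP S V n z hz a b' ha (by omega)) t h0 h1

theorem vedge_row [CompleteSpace B] (n : ℕ) (z : B) (hz : Corner S V n z) (a b : ℕ)
    (ha : a ≤ S.M n) (hb : b < S.M n) (t : ℝ) (h0 : 0 ≤ t) (h1 : t ≤ 1) :
    gQ S V n z (S.row n b) a b + S.r (n + 1) • (t • V.e2) ∈ K S V := by
  rcases Nat.lt_or_ge a (S.M n) with h | h
  · exact edge_left S V (n + 1) _ (corner_gQ_row S V n z hz a b h hb) t h0 h1
  · obtain ⟨a', rfl⟩ : ∃ a', a = a' + 1 := ⟨a - 1, by have := S.M_pos n; omega⟩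
    rw [gQ_succ_left]
    exact edge_right S V (n + 1) _ (corner_gQ_row S V n z hz a' b (by omega) hb) t h0 h1

theorem vedge_col_left [CompleteSpace B] (n : ℕ) (z : B) (hz : Corner S V n z) (a b : ℕ)
    (ha : a < S.M n) (hb : b < S.M n) (t : ℝ) (h0 : 0 ≤ t) (h1 : t ≤ 1) :
    gQ S V n z (S.col n a) a b + S.r (n + 1) • (t • V.e2) ∈ K S V :=
  edge_left S V (n + 1) _ (corner_gQ_col S V n z hz a b ha hb) t h0 h1

theorem vedge_col_right [CompleteSpace B] (n : ℕ) (z : B) (hz : Corner S V n z) (a b : ℕ)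
    (ha : a < S.M n) (hb : b < S.M n) (t : ℝ) (h0 : 0 ≤ t) (h1 : t ≤ 1) :
    gQ S V n z (S.col n a) (a + 1) b + S.r (n + 1) • (t • V.e2) ∈ K S V := by
  rw [gQ_succ_left]
  exact edge_right S V (n + 1) _ (corner_gQ_col S V n z hz a b ha hb) t h0 h1

theorem hedge_col [CompleteSpace B] (n : ℕ) (z : B) (hz : Corner S V n z) (a b : ℕ)
    (ha : a < S.M n) (hb : b ≤ S.M n) (t : ℝ) (h0 : 0 ≤ t) (h1 : t ≤ 1) :
    gQ S V n z (S.col n a) a b + S.r (n + 1) • (t • V.e1) ∈ K S V := by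
  rcases Nat.lt_or_ge b (S.M n) with h | h
  · exact edge_bot S V (n + 1) _ (corner_gQ_col S V n z hz a b ha h) t h0 h1
  · obtain ⟨b', rfl⟩ : ∃ b', b = b' + 1 := ⟨b - 1, by have := S.M_pos n; omega⟩
    rw [gQ_succ_right]
    exact edge_top S V (n + 1) _ (corner_gQ_col S V n z hz a b' ha (by omega)) t h0 h1

end geom

section diff

variable {B : Type*} [NormedAddCommGroup B] [NormedSpace ℝ B] [CompleteSpace B] (S : Sys) (V : Vec B)
variable {E : Type*} [NormedAddCommGroup E] [NormedSpace ℝ E] [CompleteSpace E] (F : B → E)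

/-- pointwise difference -/
noncomputable def gDp (n : ℕ) (z : B) (i a b : ℕ) : E :=
  (S.r (n + 1))⁻¹ • (F (gQ S V n z i a b) - F (gP S V n z a b))

/-- difference of the vertical edge averages -/
noncomputable def gDH (n : ℕ) (z : B) (i a b : ℕ) : E :=
  (S.r (n + 1))⁻¹ • (vE V F (S.r (n + 1)) (gQ S V n z i a b)
    - vE V F (S.r (n + 1)) (gP S V n z a b))

/-- difference of the horizontal edge averages -/
noncomputable def gDV (n : ℕ) (z : B) (i a b : ℕ) : E :=
  (S.r (n + 1))⁻¹ • (hE V F (S.r (n + 1)) (gQ S V n z i a b)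
    - hE V F (S.r (n + 1)) (gP S V n z a b))

theorem al1_sub (n : ℕ) (z : B) (i a b : ℕ) :
    al1 V F (S.r (n + 1)) (gQ S V n z i a b) - al1 V F (S.r (n + 1)) (gP S V n z a b)
      = gDH S V F n z i (a + 1) b - gDH S V F n z i a b := by
  unfold al1 gDH
  rw [gQ_succ_left, gP_succ_left]
  module

theorem al2_sub (n : ℕ) (z : B) (i a b : ℕ) :
    al2 V F (S.r (n + 1)) (gQ S V n z i a b) - al2 V F (S.r (n + 1)) (gP S V n z a b)
      = gDV S V F n z i a (b + 1) - gDV S V F n z i a b := by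
  unfold al2 gDV
  rw [gQ_succ_right, gP_succ_right]
  module

theorem gQ_sub_gP_norm (n : ℕ) (z : B) (i a b : ℕ) :
    ‖gQ S V n z i a b - gP S V n z a b‖ ≤ S.r (n + 1) * (7 * S.h n) := by
  have h1 : gQ S V n z i a b - gP S V n z a b = S.r (n + 1) • ((S.h n : ℝ) • V.v i) := by
    unfold gQ; abel
  rw [h1, norm_smul, norm_smul, Real.norm_of_nonneg (S.r_pos _).le,
    Real.norm_of_nonneg (Nat.cast_nonneg _)]
  have h2 := V.v_le i
  have h3 := (S.r_pos (n + 1)).le
  have h4 : (0 : ℝ) ≤ (S.h n : ℝ) := Nat.cast_nonneg _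
  have h5 : (S.h n : ℝ) * ‖V.v i‖ ≤ S.h n * 7 := mul_le_mul_of_nonneg_left h2 h4
  have h6 := mul_le_mul_of_nonneg_left h5 h3
  linarith

variable (C : ℝ) (hC : 0 ≤ C) (hF : ∀ x ∈ K S V, ∀ y ∈ K S V, ‖F x - F y‖ ≤ C * ‖x - y‖)

include hC hF

theorem gDH_le (n : ℕ) (z : B) (i a b : ℕ)
    (hq : ∀ t : ℝ, 0 ≤ t → t ≤ 1 → gQ S V n z i a b + S.r (n + 1) • (t • V.e2) ∈ K S V)
    (hp : ∀ t : ℝ, 0 ≤ t → t ≤ 1 → gP S V n z a b + S.r (n + 1) • (t • V.e2) ∈ K S V) :
    ‖gDH S V F n z i a b‖ ≤ 7 * C * S.h n := by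
  have h1 := vE_sub_le V F (K S V) C hF (S.r (n + 1)) _ _ hq hp
  have h2 := gQ_sub_gP_norm S V n z i a b
  have h3 := S.r_pos (n + 1)
  unfold gDH
  rw [norm_smul, norm_inv, Real.norm_of_nonneg h3.le]
  rw [inv_mul_le_iff₀ h3]
  calc _ ≤ C * ‖gQ S V n z i a b - gP S V n z a b‖ := h1
    _ ≤ C * (S.r (n + 1) * (7 * S.h n)) := mul_le_mul_of_nonneg_left h2 hC
    _ = _ := by ring

theorem gDV_le (n : ℕ) (z : B) (i a b : ℕ)
    (hq : ∀ t : ℝ, 0 ≤ t → t ≤ 1 → gQ S V n z i a b + S.r (n + 1) • (t • V.e1) ∈ K S V)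
    (hp : ∀ t : ℝ, 0 ≤ t → t ≤ 1 → gP S V n z a b + S.r (n + 1) • (t • V.e1) ∈ K S V) :
    ‖gDV S V F n z i a b‖ ≤ 7 * C * S.h n := by
  have h1 := hE_sub_le V F (K S V) C hF (S.r (n + 1)) _ _ hq hp
  have h2 := gQ_sub_gP_norm S V n z i a b
  have h3 := S.r_pos (n + 1)
  unfold gDV
  rw [norm_smul, norm_inv, Real.norm_of_nonneg h3.le]
  rw [inv_mul_le_iff₀ h3]
  calc _ ≤ C * ‖gQ S V n z i a b - gP S V n z a b‖ := h1
    _ ≤ C * (S.r (n + 1) * (7 * S.h n)) := mul_le_mul_of_nonneg_left h2 hC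
    _ = _ := by ring

theorem gDp_sub_gDH (n : ℕ) (z : B) (i a b : ℕ)
    (hq : ∀ t : ℝ, 0 ≤ t → t ≤ 1 → gQ S V n z i a b + S.r (n + 1) • (t • V.e2) ∈ K S V)
    (hp : ∀ t : ℝ, 0 ≤ t → t ≤ 1 → gP S V n z a b + S.r (n + 1) • (t • V.e2) ∈ K S V) :
    ‖gDp S V F n z i a b - gDH S V F n z i a b‖ ≤ 2 * C := by
  have h3 := S.r_pos (n + 1)
  have h1 := vE_sub_F_le V F (K S V) C hC hF (S.r (n + 1)) h3.le _ hq
  have h2 := vE_sub_F_le V F (K S V) C hC hF (S.r (n + 1)) h3.le _ hp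
  have h4 : gDp S V F n z i a b - gDH S V F n z i a b = (S.r (n + 1))⁻¹ •
      ((vE V F (S.r (n + 1)) (gP S V n z a b) - F (gP S V n z a b))
        - (vE V F (S.r (n + 1)) (gQ S V n z i a b) - F (gQ S V n z i a b))) := by
    unfold gDp gDH; module
  rw [h4, norm_smul, norm_inv, Real.norm_of_nonneg h3.le, inv_mul_le_iff₀ h3]
  refine (norm_sub_le _ _).trans ?_
  linarith

theorem gDp_sub_gDV (n : ℕ) (z : B) (i a b : ℕ)
    (hq : ∀ t : ℝ, 0 ≤ t → t ≤ 1 → gQ S V n z i a b + S.r (n + 1) • (t • V.e1) ∈ K S V)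
    (hp : ∀ t : ℝ, 0 ≤ t → t ≤ 1 → gP S V n z a b + S.r (n + 1) • (t • V.e1) ∈ K S V) :
    ‖gDp S V F n z i a b - gDV S V F n z i a b‖ ≤ 2 * C := by
  have h3 := S.r_pos (n + 1)
  have h1 := hE_sub_F_le V F (K S V) C hC hF (S.r (n + 1)) h3.le _ hq
  have h2 := hE_sub_F_le V F (K S V) C hC hF (S.r (n + 1)) h3.le _ hp
  have h4 : gDp S V F n z i a b - gDV S V F n z i a b = (S.r (n + 1))⁻¹ •
      ((hE V F (S.r (n + 1)) (gP S V n z a b) - F (gP S V n z a b))
        - (hE V F (S.r (n + 1)) (gQ S V n z i a b) - F (gQ S V n z i a b))) := by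
    unfold gDp gDV; module
  rw [h4, norm_smul, norm_inv, Real.norm_of_nonneg h3.le, inv_mul_le_iff₀ h3]
  refine (norm_sub_le _ _).trans ?_
  linarith

omit [CompleteSpace B] [CompleteSpace E] hC hF in
theorem gDp_sep (c : ℝ) (hc : 0 ≤ c)
    (hF' : ∀ x ∈ K S V, ∀ y ∈ K S V, c * ‖x - y‖ ≤ ‖F x - F y‖)
    (n : ℕ) (z : B) (i j a b : ℕ) (hij : i ≠ j)
    (hi : gQ S V n z i a b ∈ K S V) (hj : gQ S V n z j a b ∈ K S V) :
    c * S.h n ≤ ‖gDp S V F n z i a b - gDp S V F n z j a b‖ := by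
  have h3 := S.r_pos (n + 1)
  have h4 : gDp S V F n z i a b - gDp S V F n z j a b = (S.r (n + 1))⁻¹ •
      (F (gQ S V n z i a b) - F (gQ S V n z j a b)) := by
    unfold gDp; module
  rw [h4, norm_smul, norm_inv, Real.norm_of_nonneg h3.le, le_inv_mul_iff₀ h3]
  have h5 := hF' _ hi _ hj
  refine le_trans ?_ h5
  have h6 : gQ S V n z i a b - gQ S V n z j a b
      = S.r (n + 1) • ((S.h n : ℝ) • (V.v i - V.v j)) := by
    unfold gQ; module
  rw [h6, norm_smul, norm_smul, Real.norm_of_nonneg h3.le,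
    Real.norm_of_nonneg (Nat.cast_nonneg _)]
  have h7 : 1 ≤ ‖V.v i - V.v j‖ := by simpa using V.v_sep i j hij 0 0
  have h8 : (0 : ℝ) ≤ (S.h n : ℝ) := Nat.cast_nonneg _
  have h9 : (S.h n : ℝ) * 1 ≤ S.h n * ‖V.v i - V.v j‖ := mul_le_mul_of_nonneg_left h7 h8
  have h10 := mul_le_mul_of_nonneg_left h9 h3.le
  have h11 := mul_le_mul_of_nonneg_left h10 hc
  linarith

end diff


variable {B : Type*} [NormedAddCommGroup B] [NormedSpace ℝ B] [CompleteSpace B] (S : Sys) (V : Vec B)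
variable {E : Type*} [NormedAddCommGroup E] [InnerProductSpace ℝ E] [CompleteSpace E] (F : B → E)

/-- PROOF. `ρ = r (n+1)`, `M = S.M n`, `P a b = z + ρ(a e1 + b e2)`, `Q i a b = P a b + ρ h v_i`.
The children corners `(a,b,0)`, `(a,b,1)`, `(a,b,2)` are `P a b`, `Q (col a) a b`, `Q (row b) a b`
(`a, b < M`), their tiles lie in `K` (`tile_mem`).
`be a b = al1 ρ (P a b)`, `gH a b = al1 ρ (Q (row b) a b)`, `gV a b = al1 ρ (Q (col a) a b)`,
`be' = al2 ρ (P a b)`, `gV' = al2 ρ (Q (col a) a b)`,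
`Dp i a b = ρ⁻¹ (F (Q i a b) - F (P a b))`, `DH i a b = ρ⁻¹ (vE ρ (Q i a b) - vE ρ (P a b))`,
`DV i a b = ρ⁻¹ (hE ρ (Q i a b) - hE ρ (P a b))`.
`gH a b - be a b = DH (row b) (a+1) b - DH (row b) a b` (identity `P a b + ρ e1 = P (a+1) b`), similarly
`gV - be` with `DH (col a)` and `gV' - be' = DV (col a) a (b+1) - DV (col a) a b`.
Telescoping and `‖DH‖ ≤ 7Ch` (`vE_sub_le`, also on the right end edges, which belong to the tile on their
left) give `tH`, `tV`, `tV'`.  Apply `grid_est` and `cell_choice`. -/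
theorem window (C c : ℝ) (hC : 0 < C) (hc : 0 < c)
    (hF : ∀ x ∈ K S V, ∀ y ∈ K S V, ‖F x - F y‖ ≤ C * ‖x - y‖)
    (hF' : ∀ x ∈ K S V, ∀ y ∈ K S V, c * ‖x - y‖ ≤ ‖F x - F y‖)
    (k1 k2 δ0 δ' η η' : ℝ)
    (hk1 : 0 ≤ k1) (hk1C : k1 ≤ C) (hk2 : 0 ≤ k2) (hk2C : k2 ≤ C)
    (hδ0 : 0 < δ0) (hδ' : 0 ≤ δ') (hη : 0 ≤ η) (hη' : 0 ≤ η') (hηC : η ≤ C)
    (hδδ : δ' ≤ δ0 / 2)
    (hall1 : ∀ n z, Corner S V n z → ‖al1 V F (S.r n) z‖ ≤ k1)
    (hall2 : ∀ n z, Corner S V n z → k1 - δ0 ≤ ‖al1 V F (S.r n) z‖ →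
        ‖al2 V F (S.r n) z‖ ≤ k2 + η)
    (n : ℕ) (z : B) (hz : Corner S V n z)
    (P1 : 8 * C * δ' + 56 * C ^ 2 * S.h n / (S.M n : ℝ) ≤ (c / (200 * S.m n ^ 2 * S.w n)) ^ 2)
    (P2 : 12 * C * (η + η') + 32 * C ^ 3 * δ' / δ0 ^ 2 + 224 * C ^ 4 / (S.w n * δ0 ^ 2)
        + 56 * C ^ 2 * S.h n / (S.M n : ℝ) ≤ (c / (200 * S.m n ^ 2)) ^ 2)
    (h80 : 80 * C ≤ c * S.h n)
    (hz1 : k1 - δ' ≤ ‖al1 V F (S.r n) z‖) (hz2 : k2 - η' ≤ ‖al2 V F (S.r n) z‖) :
    ∃ d : ℕ → E, (∀ i < S.m n, ‖d i‖ ≤ 7 * C * S.h n) ∧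
      ∀ i < S.m n, ∀ j < S.m n, i ≠ j → c * S.h n / 2 ≤ ‖d i - d j‖ := by
  have hM : bigM (S.m n) (S.h n) (S.w n) (S.N n) = S.M n := rfl
  have hCl : ∀ n z, Corner S V n z → ‖al2 V F (S.r n) z‖ ≤ C :=
    fun n z hz => al2_le S V F C hC.le hF n z hz
  have hWpos : 0 < S.h n * S.w n := Nat.mul_pos (S.h_pos n) (S.w_pos n)
  have est := grid_est (S.m n) (S.h n) (S.w n) (S.N n) (S.m_pos n) (S.h_pos n) (S.w_pos n)
    (S.N_pos n) C c k1 k2 δ0 δ' η η' hC hc hk1 hk1C hk2 hk2C hδ0 hδ' hη hη' hηC hδδ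
    (by rw [hM]; exact P1) (by rw [hM]; exact P2)
    (al1 V F (S.r n) z) (al2 V F (S.r n) z)
    (fun a b => al1 V F (S.r (n + 1)) (gP S V n z a b))
    (fun a b => al1 V F (S.r (n + 1)) (gQ S V n z (S.row n b) a b))
    (fun a b => al1 V F (S.r (n + 1)) (gQ S V n z (S.col n a) a b))
    (fun a b => al2 V F (S.r (n + 1)) (gP S V n z a b))
    (fun a b => al2 V F (S.r (n + 1)) (gQ S V n z (S.col n a) a b))
    (fun a ha b hb => hall1 _ _ (corner_gP S V n z hz a b ha hb))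
    (fun a ha b hb => hall1 _ _ (corner_gQ_row S V n z hz a b ha hb))
    (fun a ha b hb => hall1 _ _ (corner_gQ_col S V n z hz a b ha hb))
    (fun a ha b hb => hCl _ _ (corner_gP S V n z hz a b ha hb))
    (fun a ha b hb => hCl _ _ (corner_gQ_col S V n z hz a b ha hb))
    (fun a ha b hb h => hall2 _ _ (corner_gP S V n z hz a b ha hb) h)
    (fun a ha b hb h => hall2 _ _ (corner_gQ_col S V n z hz a b ha hb) h)
    (by rw [hM]; exact (al1_children S V F C hF n z hz).symm)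
    (by rw [hM]; exact (al2_children S V F C hF n z hz).symm)
    hz1 hz2
    (by
      intro b hb
      rw [hM] at hb ⊢
      have h1 : ∀ a, al1 V F (S.r (n + 1)) (gQ S V n z (S.row n b) a b)
          - al1 V F (S.r (n + 1)) (gP S V n z a b)
          = gDH S V F n z (S.row n b) (a + 1) b - gDH S V F n z (S.row n b) a b :=
        fun a => al1_sub S V F n z _ a b
      simp only [h1]
      rw [Finset.sum_range_sub (fun a => gDH S V F n z (S.row n b) a b)]
      refine (norm_sub_le _ _).trans ?_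
      have h2 := gDH_le S V F C hC.le hF n z (S.row n b) (S.M n) b
        (vedge_row S V n z hz _ b le_rfl hb) (vedge_P S V n z hz _ b le_rfl hb)
      have h3 := gDH_le S V F C hC.le hF n z (S.row n b) 0 b
        (vedge_row S V n z hz _ b (Nat.zero_le _) hb) (vedge_P S V n z hz _ b (Nat.zero_le _) hb)
      linarith)
    (by
      intro b hb k hk
      rw [hM] at hb
      have hcol : ∀ t < S.h n * S.w n, S.col n (k * (S.h n * S.w n) + t) = k % S.m n := by
        intro t ht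
        unfold Sys.col colOf
        congr 1
        rw [mul_comm k, Nat.mul_add_div hWpos, Nat.div_eq_of_lt ht, add_zero]
      have hlt : ∀ t < S.h n * S.w n, k * (S.h n * S.w n) + t < S.M n := by
        intro t ht
        have h1 : (k + 1) * (S.h n * S.w n) ≤ 1000 * (S.m n * S.N n) * (S.h n * S.w n) :=
          Nat.mul_le_mul_right _ hk
        have h2 : 1000 * (S.m n * S.N n) * (S.h n * S.w n) = S.M n := by
          rw [S.M_eq]; ring
        rw [h2] at h1
        nlinarith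
      have h1 : ∀ t ∈ range (S.h n * S.w n),
          al1 V F (S.r (n + 1)) (gQ S V n z (S.col n (k * (S.h n * S.w n) + t))
            (k * (S.h n * S.w n) + t) b)
          - al1 V F (S.r (n + 1)) (gP S V n z (k * (S.h n * S.w n) + t) b)
          = gDH S V F n z (k % S.m n) (k * (S.h n * S.w n) + (t + 1)) b
            - gDH S V F n z (k % S.m n) (k * (S.h n * S.w n) + t) b := by
        intro t ht
        rw [al1_sub S V F n z _ _ b, hcol t (Finset.mem_range.mp ht)]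
        rfl
      rw [Finset.sum_congr rfl h1]
      rw [Finset.sum_range_sub (fun t => gDH S V F n z (k % S.m n) (k * (S.h n * S.w n) + t) b)]
      refine (norm_sub_le _ _).trans ?_
      have h2 : ‖gDH S V F n z (k % S.m n) (k * (S.h n * S.w n) + S.h n * S.w n) b‖
          ≤ 7 * C * S.h n := by
        obtain ⟨t, ht⟩ : ∃ t, S.h n * S.w n = t + 1 := ⟨S.h n * S.w n - 1, by omega⟩
        have e1 : k * (S.h n * S.w n) + S.h n * S.w n = (k * (S.h n * S.w n) + t) + 1 := by omega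
        rw [e1]
        have hlt' := hlt t (by omega)
        have hcol' := hcol t (by omega)
        apply gDH_le S V F C hC.le hF
        · have := vedge_col_right S V n z hz (k * (S.h n * S.w n) + t) b hlt' hb
          rw [hcol'] at this
          exact this
        · exact vedge_P S V n z hz _ b (by omega) hb
      have h3 : ‖gDH S V F n z (k % S.m n) (k * (S.h n * S.w n) + 0) b‖ ≤ 7 * C * S.h n := by
        have hlt' := hlt 0 hWpos
        have hcol' := hcol 0 hWpos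
        apply gDH_le S V F C hC.le hF
        · have := vedge_col_left S V n z hz (k * (S.h n * S.w n) + 0) b hlt' hb
          rw [hcol'] at this
          exact this
        · exact vedge_P S V n z hz _ b hlt'.le hb
      linarith)
    (by
      intro a ha
      rw [hM] at ha ⊢
      have h1 : ∀ b, al2 V F (S.r (n + 1)) (gQ S V n z (S.col n a) a b)
          - al2 V F (S.r (n + 1)) (gP S V n z a b)
          = gDV S V F n z (S.col n a) a (b + 1) - gDV S V F n z (S.col n a) a b :=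
        fun b => al2_sub S V F n z _ a b
      simp only [h1]
      rw [Finset.sum_range_sub (fun b => gDV S V F n z (S.col n a) a b)]
      refine (norm_sub_le _ _).trans ?_
      have h2 := gDV_le S V F C hC.le hF n z (S.col n a) a (S.M n)
        (hedge_col S V n z hz a _ ha le_rfl) (hedge_P S V n z hz a _ ha le_rfl)
      have h3 := gDV_le S V F C hC.le hF n z (S.col n a) a 0
        (hedge_col S V n z hz a _ ha (Nat.zero_le _)) (hedge_P S V n z hz a _ ha (Nat.zero_le _))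
      linarith)
  obtain ⟨sH, sV⟩ := est
  apply cell_choice (S.m n) (S.h n) (S.w n) (S.N n) (S.m_pos n) (S.h_pos n) (S.w_pos n)
    (S.N_pos n) C c hC hc h80 (gDp S V F n z) (gDH S V F n z) (gDV S V F n z)
  · intro a ha b hb
    exact gDH_le S V F C hC.le hF n z _ a b (vedge_row S V n z hz a b ha.le hb)
      (vedge_P S V n z hz a b ha.le hb)
  · intro a ha b hb
    exact gDp_sub_gDH S V F C hC.le hF n z _ a b (vedge_row S V n z hz a b ha.le hb)
      (vedge_P S V n z hz a b ha.le hb)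
  · intro a ha b hb
    exact gDp_sub_gDV S V F C hC.le hF n z _ a b (hedge_col S V n z hz a b ha hb.le)
      (hedge_P S V n z hz a b ha hb.le)
  · intro a ha b hb hne
    exact gDp_sep S V F c hc.le hF' n z _ _ a b hne
      (corner_mem S V (n + 1) _ (corner_gQ_col S V n z hz a b ha hb))
      (corner_mem S V (n + 1) _ (corner_gQ_row S V n z hz a b ha hb))
  · refine le_trans (le_of_eq ?_) sH
    refine Finset.sum_congr rfl fun a ha => Finset.sum_congr rfl fun b hb => ?_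
    rw [al1_sub S V F n z _ a b]
    rfl
  · refine le_trans (le_of_eq ?_) sV
    refine Finset.sum_congr rfl fun a ha => Finset.sum_congr rfl fun b hb => ?_
    rw [al2_sub S V F n z _ a b]
    rfl

end Crest.Agent.LP
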