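import Mathlib
import Crest.Prelude.Def_Doubling

/-!
# S0392, definitions

`Sys` : parameters of all levels, `Vec B` : the vectors `e1, e2, v_i` in the Banach space,
`pt S V ω` : the point with digit sequence `ω`, `K S V` : the compact set,
`Corner S V n z` : `z` is the corner of a tile of generation `n` (side `r n`),
`vE`/`hE` : averages of `F` over the vertical / horizontal edge starting at `z` with length `ρ`,
`al1`/`al2` : averaged difference quotients of `F` over the tile with corner `z` and side `ρ`.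
-/

set_option autoImplicit false

namespace Crest.Agent.LP

/-- size (number of subtiles in each direction) -/
def bigM (m h w N : ℕ) : ℕ := 1000 * (m * h * w * N)

/-- colour of the column `a` (blocks of width `h*w`, `m` colours) -/
def colOf (m h w a : ℕ) : ℕ := (a / (h * w)) % m

/-- colour of the row `b` (blocks of height `h`, `m` colours) -/
def rowOf (m h b : ℕ) : ℕ := (b / h) % m

/-- The parameters of all levels. -/
structure Sys where
  m : ℕ → ℕ
  h : ℕ → ℕ
  w : ℕ → ℕ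
  N : ℕ → ℕ
  m_pos : ∀ l, 0 < m l
  h_pos : ∀ l, 0 < h l
  w_pos : ∀ l, 0 < w l
  N_pos : ∀ l, 0 < N l
  often : ∀ a b c d : ℕ, 0 < a → 0 < b → 0 < c → 0 < d → ∀ L : ℕ,
    ∃ l, L ≤ l ∧ m l = a ∧ h l = b ∧ w l = c ∧ N l = d

namespace Sys

variable (S : Sys)

def M (l : ℕ) : ℕ := bigM (S.m l) (S.h l) (S.w l) (S.N l)

def col (l a : ℕ) : ℕ := colOf (S.m l) (S.h l) (S.w l) a

def row (l b : ℕ) : ℕ := rowOf (S.m l) (S.h l) b

/-- side of the tiles of generation `l` -/
noncomputable def r : ℕ → ℝ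
  | 0 => 1
  | (l + 1) => r l / (S.M l : ℝ)

theorem M_eq (l : ℕ) : S.M l = 1000 * (S.m l * S.h l * S.w l * S.N l) := rfl

theorem M_ge_h (l : ℕ) : 1000 * S.h l ≤ S.M l := by
  rw [S.M_eq]
  have h1 : 1 ≤ S.m l := S.m_pos l
  have h2 : 1 ≤ S.w l := S.w_pos l
  have h3 : 1 ≤ S.N l := S.N_pos l
  have : S.h l ≤ S.m l * S.h l * S.w l * S.N l := by
    calc S.h l = 1 * S.h l * 1 * 1 := by ring
      _ ≤ S.m l * S.h l * S.w l * S.N l := by gcongr
  omega

theorem M_ge (l : ℕ) : 1000 ≤ S.M l := by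
  have h1 : 1 ≤ S.h l := S.h_pos l
  have := S.M_ge_h l
  omega

theorem M_pos (l : ℕ) : 0 < S.M l := by have := S.M_ge l; omega

theorem M_posR (l : ℕ) : (0 : ℝ) < (S.M l : ℝ) := by exact_mod_cast S.M_pos l

@[simp] theorem r_zero : S.r 0 = 1 := rfl

theorem r_succ (l : ℕ) : S.r (l + 1) = S.r l / (S.M l : ℝ) := rfl

theorem r_pos (l : ℕ) : 0 < S.r l := by
  induction l with
  | zero => simp
  | succ l ih => rw [S.r_succ]; exact div_pos ih (S.M_posR l)

theorem M_mul_r (l : ℕ) : (S.M l : ℝ) * S.r (l + 1) = S.r l := by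
  rw [S.r_succ]; field_simp [(S.M_posR l).ne']

theorem r_succ_le (l : ℕ) : S.r (l + 1) ≤ S.r l / 1000 := by
  rw [S.r_succ]
  have h1 : (1000 : ℝ) ≤ (S.M l : ℝ) := by exact_mod_cast S.M_ge l
  exact div_le_div_of_nonneg_left (S.r_pos l).le (by norm_num) h1

theorem r_le_pow (l : ℕ) : S.r l ≤ (1 / 1000 : ℝ) ^ l := by
  induction l with
  | zero => simp
  | succ l ih =>
    calc S.r (l + 1) ≤ S.r l / 1000 := S.r_succ_le l
      _ ≤ (1 / 1000 : ℝ) ^ l / 1000 := by gcongr
      _ = (1 / 1000 : ℝ) ^ (l + 1) := by ring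

end Sys

/-- The vectors used in the construction. -/
structure Vec (B : Type*) [NormedAddCommGroup B] [NormedSpace ℝ B] where
  e1 : B
  e2 : B
  v : ℕ → B
  e1_le : ‖e1‖ ≤ 1
  e2_le : ‖e2‖ ≤ 1
  fst_le : ∀ a b : ℝ, |a| ≤ 3 * ‖a • e1 + b • e2‖
  snd_le : ∀ a b : ℝ, |b| ≤ 3 * ‖a • e1 + b • e2‖
  v_le : ∀ i, ‖v i‖ ≤ 7
  v_sep : ∀ i j, i ≠ j → ∀ a b : ℝ, 1 ≤ ‖v i - v j + (a • e1 + b • e2)‖
  v_far : ∀ i, ∀ a b : ℝ, 1 ≤ ‖v i + (a • e1 + b • e2)‖

section

variable {B : Type*} [NormedAddCommGroup B] [NormedSpace ℝ B] (S : Sys) (V : Vec B)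

/-- the shift vector of the digit `(a,b,s)` at level `l` -/
noncomputable def X (l a b : ℕ) (s : Fin 3) : B :=
  if s = 0 then 0
  else if s = 1 then (S.h l : ℝ) • V.v (S.col l a)
  else (S.h l : ℝ) • V.v (S.row l b)

/-- displacement (in units of `r (l+1)`) of the digit `(a,b,s)` at level `l` -/
noncomputable def dig (l a b : ℕ) (s : Fin 3) : B :=
  (a : ℝ) • V.e1 + (b : ℝ) • V.e2 + X S V l a b s

/-- digit sequences -/
abbrev Om : Type := (l : ℕ) → Fin (S.M l) × Fin (S.M l) × Fin 3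

/-- the point with digit sequence `ω` -/
noncomputable def pt (ω : Om S) : B :=
  ∑' l, S.r (l + 1) • dig S V l (ω l).1 (ω l).2.1 (ω l).2.2

/-- the compact set -/
def K : Set B := Set.range (pt S V)

/-- corners of the tiles of generation `n` -/
inductive Corner : ℕ → B → Prop
  | zero : Corner 0 0
  | step (n : ℕ) (z : B) (a b : ℕ) (s : Fin 3) (ha : a < S.M n) (hb : b < S.M n)
      (hz : Corner n z) : Corner (n + 1) (z + S.r (n + 1) • dig S V n a b s)

variable {E : Type*} [NormedAddCommGroup E] [NormedSpace ℝ E] (F : B → E)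

/-- average of `F` over the vertical edge `z + [0,ρ] e2` -/
noncomputable def vE (ρ : ℝ) (z : B) : E := ∫ y in (0 : ℝ)..1, F (z + ρ • (y • V.e2))

/-- average of `F` over the horizontal edge `z + [0,ρ] e1` -/
noncomputable def hE (ρ : ℝ) (z : B) : E := ∫ x in (0 : ℝ)..1, F (z + ρ • (x • V.e1))

/-- averaged horizontal difference quotient over the tile `z + [0,ρ]²` -/
noncomputable def al1 (ρ : ℝ) (z : B) : E := ρ⁻¹ • (vE V F ρ (z + ρ • V.e1) - vE V F ρ z)

/-- averaged vertical difference quotient over the tile `z + [0,ρ]²` -/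
noncomputable def al2 (ρ : ℝ) (z : B) : E := ρ⁻¹ • (hE V F ρ (z + ρ • V.e2) - hE V F ρ z)

end

end Crest.Agent.LP
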