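import Crest.Agent.LP.Defs
import Crest.Agent.LP.Compact

/-! Module C: `K` is doubling with a universal constant. Part C1 (helper5). -/

set_option autoImplicit false

namespace Crest.Agent.LP

variable {B : Type*} [NormedAddCommGroup B] [NormedSpace ℝ B] (S : Sys) (V : Vec B)

/-- `H_l = r_{l+1} h_l`, the size of the shift vectors at level `l` -/
noncomputable def HH (l : ℕ) : ℝ := S.r (l + 1) * S.h l

theorem HH_pos (l : ℕ) : 0 < HH S l :=
  mul_pos (S.r_pos _) (by exact_mod_cast S.h_pos l)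

/-- `H_{l+1} ≤ H_l / 1000` : `H_{l+1} = r_{l+1} h_{l+1} / M_{l+1} ≤ r_{l+1}/1000 ≤ H_l/1000`. -/
theorem HH_succ_le (l : ℕ) : HH S (l + 1) ≤ HH S l / 1000 := by
  have h1 : (1000 : ℝ) * S.h (l + 1) ≤ S.M (l + 1) := by exact_mod_cast S.M_ge_h (l + 1)
  have h2 : (1 : ℝ) ≤ S.h l := by exact_mod_cast S.h_pos l
  have hr2 := S.r_pos (l + 2)
  have hr1 := S.r_pos (l + 1)
  have h3 := S.M_mul_r (l + 1)
  unfold HH
  have h4 : 1000 * (S.r (l + 1 + 1) * S.h (l + 1)) ≤ S.r (l + 1) := by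
    rw [← h3]
    nlinarith
  nlinarith

theorem HH_add_le (l k : ℕ) : HH S (k + l) ≤ HH S l * (1 / 1000 : ℝ) ^ k := by
  induction k with
  | zero => simp
  | succ k ih =>
    calc HH S (k + 1 + l) = HH S (k + l + 1) := by congr 1; ring
      _ ≤ HH S (k + l) / 1000 := HH_succ_le S _
      _ ≤ (HH S l * (1 / 1000 : ℝ) ^ k) / 1000 := by gcongr
      _ = HH S l * (1 / 1000 : ℝ) ^ (k + 1) := by ring

/-- first coordinate -/
noncomputable def p1 (ω : Om S) : ℝ := ∑' l, S.r (l + 1) * ((ω l).1 : ℕ)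

/-- second coordinate -/
noncomputable def p2 (ω : Om S) : ℝ := ∑' l, S.r (l + 1) * ((ω l).2.1 : ℕ)

/-- the shift part -/
noncomputable def VV (ω : Om S) : B :=
  ∑' l, S.r (l + 1) • X S V l (ω l).1 (ω l).2.1 (ω l).2.2

theorem summable_digit (a : ℕ → ℕ) (ha : ∀ l, a l < S.M l) :
    Summable fun l => S.r (l + 1) * (a l : ℝ) := by
  refine Summable.of_nonneg_of_le (fun l => ?_) (fun l => ?_) (summable_r S)
  · exact mul_nonneg (S.r_pos _).le (Nat.cast_nonneg _)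
  · rw [← S.M_mul_r l, mul_comm]
    have : (a l : ℝ) ≤ S.M l := by exact_mod_cast (ha l).le
    exact mul_le_mul_of_nonneg_right this (S.r_pos _).le

theorem norm_rX_le (l a b : ℕ) (s : Fin 3) : ‖S.r (l + 1) • X S V l a b s‖ ≤ 7 * HH S l := by
  rw [norm_smul, Real.norm_eq_abs, abs_of_pos (S.r_pos _)]
  have := norm_X_le S V l a b s
  have hr := S.r_pos (l + 1)
  unfold HH
  nlinarith

theorem summable_HH : Summable (HH S) := by
  refine Summable.of_nonneg_of_le (fun l => (HH_pos S l).le) (fun l => HH_add_le S 0 l) ?_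
  exact (summable_geometric_of_lt_one (by norm_num) (by norm_num)).mul_left _

theorem summable_X [CompleteSpace B] (ω : Om S) :
    Summable fun l => S.r (l + 1) • X S V l (ω l).1 (ω l).2.1 (ω l).2.2 :=
  Summable.of_norm_bounded (g := fun l => 7 * HH S l) ((summable_HH S).mul_left 7)
    (fun l => norm_rX_le S V l _ _ _)

theorem pt_eq [CompleteSpace B] (ω : Om S) :
    pt S V ω = p1 S ω • V.e1 + p2 S ω • V.e2 + VV S V ω := by
  have s1 := summable_digit S (fun l => ((ω l).1 : ℕ)) (fun l => (ω l).1.2)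
  have s2 := summable_digit S (fun l => ((ω l).2.1 : ℕ)) (fun l => (ω l).2.1.2)
  have s3 := summable_X S V ω
  have t1 : HasSum (fun l => (S.r (l + 1) * (((ω l).1 : ℕ) : ℝ)) • V.e1) (p1 S ω • V.e1) :=
    s1.hasSum.smul_const _
  have t2 : HasSum (fun l => (S.r (l + 1) * (((ω l).2.1 : ℕ) : ℝ)) • V.e2) (p2 S ω • V.e2) :=
    s2.hasSum.smul_const _
  have t3 : HasSum (fun l => S.r (l + 1) • X S V l (ω l).1 (ω l).2.1 (ω l).2.2) (VV S V ω) :=
    s3.hasSum
  have t := (t1.add t2).add t3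
  unfold pt
  rw [← t.tsum_eq]
  congr 1
  ext l
  unfold dig
  module

omit [NormedSpace ℝ B] in
/-- tails of differences of shift parts -/
theorem tail_le [CompleteSpace B] (g : ℕ → B) (hg : ∀ k, ‖g k‖ ≤ 14 * HH S k) (l : ℕ) :
    ‖∑' k, g (k + l)‖ ≤ 28 * HH S l := by
  have h1 : HasSum (fun k : ℕ => 14 * HH S l * (1 / 1000 : ℝ) ^ k)
      (14 * HH S l * (1 - 1 / 1000)⁻¹) :=
    (hasSum_geometric_of_lt_one (by norm_num) (by norm_num)).mul_left _
  have h2 := tsum_of_norm_bounded h1 (f := fun k => g (k + l)) (fun k => by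
    refine (hg (k + l)).trans ?_
    have := HH_add_le S l k
    calc 14 * HH S (k + l) ≤ 14 * (HH S l * (1 / 1000 : ℝ) ^ k) := by gcongr
      _ = _ := by ring)
  refine h2.trans ?_
  have := HH_pos S l
  have h3 : ((1 : ℝ) - 1 / 1000)⁻¹ ≤ 2 := by norm_num
  nlinarith

/-- difference of the shift parts -/
theorem VV_sub [CompleteSpace B] (ω ω' : Om S) :
    Summable (fun k => S.r (k + 1) • X S V k (ω k).1 (ω k).2.1 (ω k).2.2 -
        S.r (k + 1) • X S V k (ω' k).1 (ω' k).2.1 (ω' k).2.2) ∧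
    VV S V ω - VV S V ω' = ∑' k, (S.r (k + 1) • X S V k (ω k).1 (ω k).2.1 (ω k).2.2 -
        S.r (k + 1) • X S V k (ω' k).1 (ω' k).2.1 (ω' k).2.2) ∧
    ∀ k, ‖S.r (k + 1) • X S V k (ω k).1 (ω k).2.1 (ω k).2.2 -
        S.r (k + 1) • X S V k (ω' k).1 (ω' k).2.1 (ω' k).2.2‖ ≤ 14 * HH S k := by
  refine ⟨(summable_X S V ω).sub (summable_X S V ω'), ?_, fun k => ?_⟩
  · exact ((summable_X S V ω).tsum_sub (summable_X S V ω')).symm
  · refine (norm_sub_le _ _).trans ?_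
    have h1 := norm_rX_le S V k (ω k).1 (ω k).2.1 (ω k).2.2
    have h2 := norm_rX_le S V k (ω' k).1 (ω' k).2.1 (ω' k).2.2
    linarith

/-- If the shift vectors agree at all levels `< l` then `‖VV ω - VV ω'‖ ≤ 28 H_l`
(`≤ ∑_{k ≥ l} 14 H_k ≤ 14 · (1000/999) H_l`). -/
theorem VV_sub_le [CompleteSpace B] (ω ω' : Om S) (l : ℕ)
    (h : ∀ k < l, X S V k (ω k).1 (ω k).2.1 (ω k).2.2 = X S V k (ω' k).1 (ω' k).2.1 (ω' k).2.2) :
    ‖VV S V ω - VV S V ω'‖ ≤ 28 * HH S l := by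
  obtain ⟨hs, he, hn⟩ := VV_sub S V ω ω'
  rw [he, ← hs.sum_add_tsum_nat_add l, Finset.sum_eq_zero, zero_add]
  · exact tail_le S _ hn l
  · intro k hk
    rw [h k (Finset.mem_range.1 hk), sub_self]

/-- separation of the possible shift directions -/
theorem sep_dir {u u' : B} (hu : u = 0 ∨ ∃ i, u = V.v i) (hu' : u' = 0 ∨ ∃ i, u' = V.v i)
    (hne : u ≠ u') (a b : ℝ) : 1 ≤ ‖u - u' + (a • V.e1 + b • V.e2)‖ := by
  rcases hu with rfl | ⟨i, rfl⟩
  · rcases hu' with rfl | ⟨j, rfl⟩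
    · exact absurd rfl hne
    · have e : (0 : B) - V.v j + (a • V.e1 + b • V.e2)
          = -(V.v j + ((-a) • V.e1 + (-b) • V.e2)) := by module
      rw [e, norm_neg]
      exact V.v_far j (-a) (-b)
  · rcases hu' with rfl | ⟨j, rfl⟩
    · simpa using V.v_far i a b
    · refine V.v_sep i j ?_ a b
      rintro rfl
      exact hne rfl

theorem X_dir (l a b : ℕ) (s : Fin 3) :
    ∃ u : B, (u = 0 ∨ ∃ i, u = V.v i) ∧ X S V l a b s = (S.h l : ℝ) • u := by
  unfold X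
  split_ifs
  · exact ⟨0, Or.inl rfl, by simp⟩
  · exact ⟨_, Or.inr ⟨_, rfl⟩, rfl⟩
  · exact ⟨_, Or.inr ⟨_, rfl⟩, rfl⟩

/-- If `l` is the first level at which the shift vectors differ then the points are at distance
`≥ H_l / 2`.
PROOF. `pt ω - pt ω' = x + r_{l+1}(X_l(ω) - X_l(ω')) + tail` with `x ∈ span{e1,e2}`,
`‖x + r_{l+1}(X_l(ω) - X_l(ω'))‖ ≥ H_l` by `v_sep`, `v_far` (scaled by `H_l`), and
`‖tail‖ ≤ 28 H_{l+1} ≤ H_l/2`. -/
theorem dist_ge [CompleteSpace B] (ω ω' : Om S) (l : ℕ)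
    (h : ∀ k < l, X S V k (ω k).1 (ω k).2.1 (ω k).2.2 = X S V k (ω' k).1 (ω' k).2.1 (ω' k).2.2)
    (hl : X S V l (ω l).1 (ω l).2.1 (ω l).2.2 ≠ X S V l (ω' l).1 (ω' l).2.1 (ω' l).2.2) :
    HH S l / 2 ≤ ‖pt S V ω - pt S V ω'‖ := by
  obtain ⟨hs, he, hn⟩ := VV_sub S V ω ω'
  set g : ℕ → B := fun k => S.r (k + 1) • X S V k (ω k).1 (ω k).2.1 (ω k).2.2 -
        S.r (k + 1) • X S V k (ω' k).1 (ω' k).2.1 (ω' k).2.2 with hg
  have htail := tail_le S g hn (l + 1)
  have hsum : VV S V ω - VV S V ω' = g l + ∑' k, g (k + (l + 1)) := by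
    rw [he, ← hs.sum_add_tsum_nat_add (l + 1), Finset.sum_range_succ, Finset.sum_eq_zero, zero_add]
    intro k hk
    simp only [hg]
    rw [h k (Finset.mem_range.1 hk), sub_self]
  obtain ⟨u, hu, hXu⟩ := X_dir S V l (ω l).1 (ω l).2.1 (ω l).2.2
  obtain ⟨u', hu', hXu'⟩ := X_dir S V l (ω' l).1 (ω' l).2.1 (ω' l).2.2
  have hne : u ≠ u' := by
    rintro rfl
    exact hl (hXu.trans hXu'.symm)
  have hH := HH_pos S l
  have hgl : g l = HH S l • (u - u') := by
    simp only [hg]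
    rw [hXu, hXu', smul_smul, smul_smul, ← smul_sub]
    rfl
  set a := p1 S ω - p1 S ω' with ha
  set b := p2 S ω - p2 S ω' with hb
  have hmain : HH S l ≤ ‖(a • V.e1 + b • V.e2) + g l‖ := by
    have h1 := sep_dir V hu hu' hne (a / HH S l) (b / HH S l)
    have h2 : (a • V.e1 + b • V.e2) + g l
        = HH S l • (u - u' + ((a / HH S l) • V.e1 + (b / HH S l) • V.e2)) := by
      rw [hgl, smul_add, smul_add, smul_smul, smul_smul, mul_div_cancel₀ _ hH.ne',
        mul_div_cancel₀ _ hH.ne']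
      abel
    rw [h2, norm_smul, Real.norm_eq_abs, abs_of_pos hH]
    nlinarith
  have hpt : pt S V ω - pt S V ω' = ((a • V.e1 + b • V.e2) + g l) + ∑' k, g (k + (l + 1)) := by
    rw [add_assoc, ← hsum, pt_eq S V ω, pt_eq S V ω', ha, hb]
    module
  rw [hpt]
  have h3 := norm_sub_le (((a • V.e1 + b • V.e2) + g l) + ∑' k, g (k + (l + 1)))
    (∑' k, g (k + (l + 1)))
  rw [add_sub_cancel_right] at h3
  have h4 := HH_succ_le S l
  linarith

/-- global index of the column at level `n` : `p1 = r_n * idx1 n + [0, r_n]`. -/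
def idx (S : Sys) (a : ℕ → ℕ) : ℕ → ℕ
  | 0 => 0
  | (n + 1) => idx S a n * S.M n + a n

theorem sum_eq_idx (a : ℕ → ℕ) (n : ℕ) :
    ∑ l ∈ Finset.range n, S.r (l + 1) * (a l : ℝ) = S.r n * idx S a n := by
  induction n with
  | zero => simp [idx]
  | succ n ih =>
    rw [Finset.sum_range_succ, ih]
    have h := S.M_mul_r n
    simp only [idx]
    push_cast
    rw [← h]
    ring

theorem idx_bounds (a : ℕ → ℕ) (ha : ∀ l, a l < S.M l) (n : ℕ) :
    0 ≤ (∑' l, S.r (l + 1) * (a l : ℝ)) - S.r n * idx S a n ∧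
      (∑' l, S.r (l + 1) * (a l : ℝ)) - S.r n * idx S a n ≤ S.r n := by
  have hs := summable_digit S a ha
  have he : (∑' l, S.r (l + 1) * (a l : ℝ)) - S.r n * idx S a n
      = ∑' k, S.r (k + n + 1) * (a (k + n) : ℝ) := by
    rw [← hs.sum_add_tsum_nat_add n, sum_eq_idx]
    ring
  have hnn : ∀ k, 0 ≤ S.r (k + n + 1) * (a (k + n) : ℝ) := fun k =>
    mul_nonneg (S.r_pos _).le (Nat.cast_nonneg _)
  rw [he]
  refine ⟨tsum_nonneg hnn, ?_⟩
  have hpart : ∀ k, ∑ i ∈ Finset.range k, S.r (i + n + 1) * (a (i + n) : ℝ)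
      ≤ S.r n - S.r (k + n) := by
    intro k
    induction k with
    | zero => simp
    | succ k ih =>
      rw [Finset.sum_range_succ]
      have h1 : (a (k + n) : ℝ) ≤ S.M (k + n) - 1 := by
        have : (a (k + n) : ℝ) + 1 ≤ S.M (k + n) := by exact_mod_cast ha (k + n)
        linarith
      have h2 := S.M_mul_r (k + n)
      have h3 := S.r_pos (k + n + 1)
      have h4 : S.r (k + 1 + n) = S.r (k + n + 1) := by congr 1; ring
      rw [h4]
      nlinarith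
  refine Real.tsum_le_of_sum_range_le hnn (fun k => (hpart k).trans ?_)
  have := S.r_pos (k + n)
  linarith

/-- `0 ≤ p1 - r_n idx_n ≤ r_n` (same for `p2`): `∑_{l ≥ n} r_{l+1} a_l ≤ ∑_{l≥n} (r_l - r_{l+1}) = r_n`. -/
theorem p1_idx (ω : Om S) (n : ℕ) :
    0 ≤ p1 S ω - S.r n * idx S (fun l => ((ω l).1 : ℕ)) n ∧
      p1 S ω - S.r n * idx S (fun l => ((ω l).1 : ℕ)) n ≤ S.r n :=
  idx_bounds S (fun l => ((ω l).1 : ℕ)) (fun l => (ω l).1.2) n

theorem p2_idx (ω : Om S) (n : ℕ) :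
    0 ≤ p2 S ω - S.r n * idx S (fun l => ((ω l).2.1 : ℕ)) n ∧
      p2 S ω - S.r n * idx S (fun l => ((ω l).2.1 : ℕ)) n ≤ S.r n :=
  idx_bounds S (fun l => ((ω l).2.1 : ℕ)) (fun l => (ω l).2.1.2) n

/-- The colour depends only on the block number of the global index, since `m W ∣ M`:
`col_l (a_l) = (idx_{l+1} / (h w)) % m`. -/
theorem col_idx (a : ℕ → ℕ) (l : ℕ) :
    S.col l (a l) = (idx S a (l + 1) / (S.h l * S.w l)) % S.m l := by
  have hW : 0 < S.h l * S.w l := Nat.mul_pos (S.h_pos l) (S.w_pos l)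
  have e : idx S a (l + 1)
      = a l + (S.h l * S.w l) * (S.m l * (1000 * S.N l * idx S a l)) := by
    simp only [idx]
    rw [S.M_eq]
    ring
  unfold Sys.col colOf
  rw [e, Nat.add_mul_div_left _ _ hW, Nat.add_mul_mod_self_left]

theorem row_idx (b : ℕ → ℕ) (l : ℕ) :
    S.row l (b l) = (idx S b (l + 1) / S.h l) % S.m l := by
  have e : idx S b (l + 1)
      = b l + S.h l * (S.m l * (1000 * S.w l * S.N l * idx S b l)) := by
    simp only [idx]
    rw [S.M_eq]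
    ring
  unfold Sys.row rowOf
  rw [e, Nat.add_mul_div_left _ _ (S.h_pos l), Nat.add_mul_mod_self_left]

end Crest.Agent.LP
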