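import Crest.Agent.LP.Defs
import Crest.Agent.LP.Doubling1

/-! Module C: `K` is doubling with a universal constant. Part C2 (helper5). -/

set_option autoImplicit false

namespace Crest.Agent.LP

variable {B : Type*} [NormedAddCommGroup B] [NormedSpace ℝ B] (S : Sys) (V : Vec B)

/-- Covering by classes: if the points of `T` near `x` are classified by a key with values in a
finite set of size `≤ Λ`, and points with the same key are `r`-close, then `T` is covered.
(Choose one representative per key that occurs.) -/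
theorem cover_of_key {α ι : Type*} [PseudoMetricSpace α] {T : Set α} {x : α} {r : ℝ} {Λ : ℕ}
    (κ : α → ι) (Q : Finset ι) (hQ : Q.card ≤ Λ)
    (h1 : ∀ y ∈ T, dist y x ≤ 2 * r → κ y ∈ Q)
    (h2 : ∀ y ∈ T, ∀ y' ∈ T, dist y x ≤ 2 * r → dist y' x ≤ 2 * r → κ y = κ y' → dist y y' ≤ r) :
    ∃ C : Finset α, (↑C : Set α) ⊆ T ∧ C.card ≤ Λ ∧
      T ∩ Metric.closedBall x (2 * r) ⊆ ⋃ c ∈ C, Metric.closedBall c r := by
  classical
  let P : ι → Prop := fun q => ∃ y, y ∈ T ∧ dist y x ≤ 2 * r ∧ κ y = q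
  let rep : ι → α := fun q => if h : P q then h.choose else x
  have hrep : ∀ q, P q → rep q ∈ T ∧ dist (rep q) x ≤ 2 * r ∧ κ (rep q) = q := by
    intro q hq
    have : rep q = hq.choose := dif_pos hq
    rw [this]
    exact hq.choose_spec
  refine ⟨(Q.filter P).image rep, ?_, ?_, ?_⟩
  · intro y hy
    rw [Finset.mem_coe, Finset.mem_image] at hy
    obtain ⟨q, hq, rfl⟩ := hy
    exact (hrep q (Finset.mem_filter.1 hq).2).1
  · exact Finset.card_image_le.trans ((Finset.card_filter_le _ _).trans hQ)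
  · rintro y ⟨hyT, hyb⟩
    rw [Metric.mem_closedBall] at hyb
    have hP : P (κ y) := ⟨y, hyT, hyb, rfl⟩
    rw [Set.mem_iUnion₂]
    refine ⟨rep (κ y), Finset.mem_image.2 ⟨κ y, Finset.mem_filter.2 ⟨h1 y hyT hyb, hP⟩, rfl⟩, ?_⟩
    rw [Metric.mem_closedBall]
    exact h2 y hyT _ (hrep _ hP).1 hyb (hrep _ hP).2.1 (hrep _ hP).2.2.symm

/-- the universal doubling constant (very generous) -/
def Lam : ℕ := 10 ^ 30

theorem HH_le_pow (l : ℕ) : HH S l ≤ HH S 0 * (1 / 1000 : ℝ) ^ l := by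
  induction l with
  | zero => simp
  | succ l ih =>
    calc HH S (l + 1) ≤ HH S l / 1000 := HH_succ_le S l
      _ ≤ (HH S 0 * (1 / 1000 : ℝ) ^ l) / 1000 := by gcongr
      _ = HH S 0 * (1 / 1000 : ℝ) ^ (l + 1) := by ring

theorem exists_HH_le {r : ℝ} (hr : 0 < r) : ∃ l, HH S l ≤ 4 * r := by
  obtain ⟨l, hl⟩ := exists_pow_lt_of_lt_one (show (0 : ℝ) < 4 * r / HH S 0 from
    div_pos (by positivity) (HH_pos S 0)) (show (1 / 1000 : ℝ) < 1 by norm_num)
  refine ⟨l, (HH_le_pow S l).trans ?_⟩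
  rw [lt_div_iff₀ (HH_pos S 0)] at hl
  linarith

/-- shift vectors agree at all levels `< l` -/
def Agree (ω ω' : Om S) (l : ℕ) : Prop :=
  ∀ k < l, X S V k (ω k).1 (ω k).2.1 (ω k).2.2 = X S V k (ω' k).1 (ω' k).2.1 (ω' k).2.2

theorem agree_of_near [CompleteSpace B] {ω ω' : Om S} {r : ℝ} {l : ℕ}
    (hl : ∀ k < l, 4 * r < HH S k) (hd : ‖pt S V ω - pt S V ω'‖ ≤ 2 * r) : Agree S V ω ω' l := by
  classical
  by_contra hcon
  unfold Agree at hcon
  push Not at hcon
  have hex : ∃ k, k < l ∧ X S V k (ω k).1 (ω k).2.1 (ω k).2.2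
      ≠ X S V k (ω' k).1 (ω' k).2.1 (ω' k).2.2 := hcon
  obtain ⟨hk1, hk2⟩ := Nat.find_spec hex
  have hlt : ∀ j < Nat.find hex, X S V j (ω j).1 (ω j).2.1 (ω j).2.2
      = X S V j (ω' j).1 (ω' j).2.1 (ω' j).2.2 := by
    intro j hj
    by_contra hne
    exact Nat.find_min hex hj ⟨hj.trans hk1, hne⟩
  have h1 := dist_ge S V ω ω' _ hlt hk2
  have h2 := hl _ hk1
  linarith

theorem Agree.symm {ω ω' : Om S} {l : ℕ} (h : Agree S V ω ω' l) : Agree S V ω' ω l :=
  fun k hk => (h k hk).symm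

theorem Agree.trans {ω ω' ω'' : Om S} {l : ℕ} (h : Agree S V ω ω' l) (h' : Agree S V ω' ω'' l) :
    Agree S V ω ω'' l :=
  fun k hk => (h k hk).trans (h' k hk)

/-- bound of the plane coordinates -/
theorem plane_le [CompleteSpace B] {ω ω' : Om S} {c : ℝ} {l : ℕ}
    (hA : Agree S V ω ω' l) (hd : ‖pt S V ω - pt S V ω'‖ ≤ c) :
    |p1 S ω - p1 S ω'| ≤ 3 * (c + 28 * HH S l) ∧ |p2 S ω - p2 S ω'| ≤ 3 * (c + 28 * HH S l) := by
  have hVV := VV_sub_le S V ω ω' l hA
  have hplane : ‖(p1 S ω - p1 S ω') • V.e1 + (p2 S ω - p2 S ω') • V.e2‖ ≤ c + 28 * HH S l := by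
    have e : (p1 S ω - p1 S ω') • V.e1 + (p2 S ω - p2 S ω') • V.e2
        = (pt S V ω - pt S V ω') - (VV S V ω - VV S V ω') := by
      rw [pt_eq S V ω, pt_eq S V ω']
      module
    rw [e]
    exact (norm_sub_le _ _).trans (add_le_add hd hVV)
  exact ⟨(V.fst_le _ _).trans (by gcongr), (V.snd_le _ _).trans (by gcongr)⟩

/-- distance from the plane coordinates -/
theorem dist_le_of [CompleteSpace B] {ω ω' : Om S} {c : ℝ} {l : ℕ}
    (hA : Agree S V ω ω' l) (h1 : |p1 S ω - p1 S ω'| ≤ c) (h2 : |p2 S ω - p2 S ω'| ≤ c) :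
    ‖pt S V ω - pt S V ω'‖ ≤ 2 * c + 28 * HH S l := by
  have hVV := VV_sub_le S V ω ω' l hA
  have e : pt S V ω - pt S V ω' = ((p1 S ω - p1 S ω') • V.e1 + (p2 S ω - p2 S ω') • V.e2)
        + (VV S V ω - VV S V ω') := by
    rw [pt_eq S V ω, pt_eq S V ω']
    module
  have hc : 0 ≤ c := (abs_nonneg _).trans h1
  rw [e]
  refine (norm_add_le _ _).trans ?_
  have h3 : ‖(p1 S ω - p1 S ω') • V.e1‖ ≤ c := by
    rw [norm_smul, Real.norm_eq_abs]
    calc |p1 S ω - p1 S ω'| * ‖V.e1‖ ≤ c * 1 := by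
          apply mul_le_mul h1 V.e1_le (norm_nonneg _) hc
      _ = c := mul_one c
  have h4 : ‖(p2 S ω - p2 S ω') • V.e2‖ ≤ c := by
    rw [norm_smul, Real.norm_eq_abs]
    calc |p2 S ω - p2 S ω'| * ‖V.e2‖ ≤ c * 1 := by
          apply mul_le_mul h2 V.e2_le (norm_nonneg _) hc
      _ = c := mul_one c
  have h5 := norm_add_le ((p1 S ω - p1 S ω') • V.e1) ((p2 S ω - p2 S ω') • V.e2)
  linarith

theorem floor_mem {u c : ℝ} {n : ℤ} (hu : |u| ≤ c) (hc : c ≤ n) :
    ⌊u⌋ ∈ Finset.Icc (-n) n := by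
  rw [Finset.mem_Icc]
  obtain ⟨h1, h2⟩ := abs_le.1 hu
  constructor
  · rw [Int.le_floor]
    push_cast
    linarith
  · have : (⌊u⌋ : ℝ) ≤ n := (Int.floor_le u).trans (h2.trans hc)
    exact_mod_cast this

theorem abs_sub_le_of_floor {u v : ℝ} (h : ⌊u⌋ = ⌊v⌋) : |u - v| ≤ 1 := (Int.abs_sub_lt_one_of_floor_eq_floor h).le

/-- block numbers of natural numbers -/
theorem block_mem {a a0 W c : ℕ} (hW : 0 < W) (h : |(a : ℝ) - a0| ≤ (c : ℝ) * W) :
    a / W ∈ Finset.Icc (a0 / W - (c + 1)) (a0 / W + (c + 1)) := by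
  obtain ⟨h1, h2⟩ := abs_le.1 h
  have h1' : a0 ≤ a + c * W := by
    have : (a0 : ℝ) ≤ ((a + c * W : ℕ) : ℝ) := by push_cast; linarith
    exact_mod_cast this
  have h2' : a ≤ a0 + c * W := by
    have : (a : ℝ) ≤ ((a0 + c * W : ℕ) : ℝ) := by push_cast; linarith
    exact_mod_cast this
  have h3 : a / W ≤ a0 / W + c := by
    calc a / W ≤ (a0 + c * W) / W := Nat.div_le_div_right h2'
      _ = a0 / W + c := Nat.add_mul_div_right _ _ hW
  have h4 : a0 / W ≤ a / W + c := by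
    calc a0 / W ≤ (a + c * W) / W := Nat.div_le_div_right h1'
      _ = a / W + c := Nat.add_mul_div_right _ _ hW
  rw [Finset.mem_Icc]
  generalize a / W = u at *
  generalize a0 / W = v at *
  omega

/-- global indices of near points -/
theorem idx_near {p p0 ρ r W : ℝ} {a a0 : ℕ} (hρ : 0 < ρ) (hW : 1 ≤ W)
    (h1 : 0 ≤ p - ρ * a ∧ p - ρ * a ≤ ρ) (h0 : 0 ≤ p0 - ρ * a0 ∧ p0 - ρ * a0 ≤ ρ)
    (hp : |p - p0| ≤ 342 * r) (hr : r ≤ 56 * (W * ρ)) :
    |(a : ℝ) - a0| ≤ 19153 * W := by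
  obtain ⟨hp1, hp2⟩ := abs_le.1 hp
  have e1 : ρ * ((a : ℝ) - a0) ≤ ρ * (19153 * W) := by nlinarith
  have e2 : ρ * (-(19153 * W)) ≤ ρ * ((a : ℝ) - a0) := by nlinarith
  rw [abs_le]
  exact ⟨le_of_mul_le_mul_left e2 hρ, le_of_mul_le_mul_left e1 hρ⟩

theorem doubling_K [CompleteSpace B] : Crest.GeometryTopology.DoublingConstLE (K S V) Lam := by
  classical
  rintro x ⟨ω0, rfl⟩ r hr
  obtain ⟨l, hl1, hl2⟩ : ∃ l, HH S l ≤ 4 * r ∧ ∀ k < l, 4 * r < HH S k := by
    refine ⟨Nat.find (exists_HH_le S hr), Nat.find_spec (exists_HH_le S hr), fun k hk => ?_⟩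
    have := Nat.find_min (exists_HH_le S hr) hk
    exact not_le.1 this
  -- digits of a point
  let om : B → Om S := fun y => if h : y ∈ K S V then h.choose else ω0
  have hom : ∀ y ∈ K S V, pt S V (om y) = y := by
    intro y hy
    have : om y = hy.choose := dif_pos hy
    rw [this]
    exact hy.choose_spec
  -- basic facts about near points
  have hnear : ∀ y ∈ K S V, dist y (pt S V ω0) ≤ 2 * r →
      Agree S V (om y) ω0 l ∧ |p1 S (om y) - p1 S ω0| ≤ 342 * r ∧
        |p2 S (om y) - p2 S ω0| ≤ 342 * r := by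
    intro y hy hd
    rw [dist_eq_norm] at hd
    nth_rw 1 [← hom y hy] at hd
    have hA := agree_of_near S V hl2 hd
    obtain ⟨h1, h2⟩ := plane_le S V hA hd
    refine ⟨hA, h1.trans ?_, h2.trans ?_⟩ <;> linarith
  -- the first two keys
  let k1 : B → ℤ := fun y => ⌊8 * (p1 S (om y) - p1 S ω0) / r⌋
  let k2 : B → ℤ := fun y => ⌊8 * (p2 S (om y) - p2 S ω0) / r⌋
  have hk1 : ∀ y ∈ K S V, dist y (pt S V ω0) ≤ 2 * r → k1 y ∈ Finset.Icc (-2736 : ℤ) 2736 := by
    intro y hy hd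
    have h1 := (hnear y hy hd).2.1
    have : |8 * (p1 S (om y) - p1 S ω0) / r| ≤ 2736 := by
      rw [abs_div, abs_mul, abs_of_pos hr, abs_of_pos (show (0 : ℝ) < 8 by norm_num),
        div_le_iff₀ hr]
      linarith
    exact floor_mem this (by norm_num)
  have hk2 : ∀ y ∈ K S V, dist y (pt S V ω0) ≤ 2 * r → k2 y ∈ Finset.Icc (-2736 : ℤ) 2736 := by
    intro y hy hd
    have h1 := (hnear y hy hd).2.2
    have : |8 * (p2 S (om y) - p2 S ω0) / r| ≤ 2736 := by
      rw [abs_div, abs_mul, abs_of_pos hr, abs_of_pos (show (0 : ℝ) < 8 by norm_num),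
        div_le_iff₀ hr]
      linarith
    exact floor_mem this (by norm_num)
  have hp : ∀ (u v u0 : ℝ), ⌊8 * (u - u0) / r⌋ = ⌊8 * (v - u0) / r⌋ → |u - v| ≤ r / 8 := by
    intro u v u0 h
    have h1 := abs_sub_le_of_floor h
    have h2 : 8 * (u - u0) / r - 8 * (v - u0) / r = (u - v) * (8 / r) := by ring
    rw [h2, abs_mul, abs_of_pos (show (0 : ℝ) < 8 / r by positivity)] at h1
    rw [← le_div_iff₀ (by positivity)] at h1
    refine h1.trans (le_of_eq ?_)
    rw [one_div_div]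
  by_cases hcase : 56 * HH S l ≤ r
  · -- CASE A
    refine cover_of_key (fun y => (k1 y, k2 y))
      (Finset.Icc (-2736 : ℤ) 2736 ×ˢ Finset.Icc (-2736 : ℤ) 2736) ?_ ?_ ?_
    · rw [Finset.card_product, Int.card_Icc,
        show ((2736 : ℤ) + 1 - (-2736)).toNat = 5473 from rfl]
      norm_num [Lam]
    · intro y hy hd
      simp only [Finset.mem_product]
      exact ⟨hk1 y hy hd, hk2 y hy hd⟩
    · intro y hy y' hy' hd hd' hkey
      obtain ⟨e1, e2⟩ := Prod.mk.inj hkey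
      have hA : Agree S V (om y) (om y') l :=
        (hnear y hy hd).1.trans S V ((hnear y' hy' hd').1.symm S V)
      have h1 := dist_le_of S V hA (hp _ _ _ e1) (hp _ _ _ e2)
      rw [hom y hy, hom y' hy'] at h1
      rw [dist_eq_norm]
      linarith
  · -- CASE B
    push Not at hcase
    let A : B → ℕ := fun y => idx S (fun l => ((om y l).1 : ℕ)) (l + 1)
    let Bb : B → ℕ := fun y => idx S (fun l => ((om y l).2.1 : ℕ)) (l + 1)
    set A0 : ℕ := idx S (fun l => ((ω0 l).1 : ℕ)) (l + 1) with hA0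
    set B0 : ℕ := idx S (fun l => ((ω0 l).2.1 : ℕ)) (l + 1) with hB0
    have hh : 1 ≤ S.h l := S.h_pos l
    have hw : 1 ≤ S.w l := S.w_pos l
    have hW : 0 < S.h l * S.w l := Nat.mul_pos hh hw
    have hρ := S.r_pos (l + 1)
    have hrh : r ≤ 56 * ((S.h l : ℝ) * S.r (l + 1)) := by
      have : HH S l = S.r (l + 1) * S.h l := rfl
      rw [this] at hcase
      linarith
    have hrW : r ≤ 56 * (((S.h l * S.w l : ℕ) : ℝ) * S.r (l + 1)) := by
      refine hrh.trans ?_
      have h1 : (S.h l : ℝ) ≤ ((S.h l * S.w l : ℕ) : ℝ) := by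
        exact_mod_cast Nat.le_mul_of_pos_right _ hw
      gcongr
    have hA : ∀ y ∈ K S V, dist y (pt S V ω0) ≤ 2 * r →
        A y / (S.h l * S.w l) ∈ Finset.Icc (A0 / (S.h l * S.w l) - 19154)
          (A0 / (S.h l * S.w l) + 19154) := by
      intro y hy hd
      refine block_mem (c := 19153) hW ?_
      have := idx_near hρ (show (1 : ℝ) ≤ ((S.h l * S.w l : ℕ) : ℝ) by exact_mod_cast hW)
        (p1_idx S (om y) (l + 1)) (p1_idx S ω0 (l + 1)) (hnear y hy hd).2.1 hrW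
      exact_mod_cast this
    have hB : ∀ y ∈ K S V, dist y (pt S V ω0) ≤ 2 * r →
        Bb y / S.h l ∈ Finset.Icc (B0 / S.h l - 19154) (B0 / S.h l + 19154) := by
      intro y hy hd
      refine block_mem (c := 19153) hh ?_
      have := idx_near hρ (show (1 : ℝ) ≤ (S.h l : ℝ) by exact_mod_cast hh)
        (p2_idx S (om y) (l + 1)) (p2_idx S ω0 (l + 1)) (hnear y hy hd).2.2 hrh
      exact_mod_cast this
    refine cover_of_key
      (fun y => ((k1 y, k2 y), (om y l).2.2, (A y / (S.h l * S.w l), Bb y / S.h l)))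
      ((Finset.Icc (-2736 : ℤ) 2736 ×ˢ Finset.Icc (-2736 : ℤ) 2736) ×ˢ
        ((Finset.univ : Finset (Fin 3)) ×ˢ
          (Finset.Icc (A0 / (S.h l * S.w l) - 19154) (A0 / (S.h l * S.w l) + 19154) ×ˢ
            Finset.Icc (B0 / S.h l - 19154) (B0 / S.h l + 19154)))) ?_ ?_ ?_
    · rw [Finset.card_product, Finset.card_product, Finset.card_product, Finset.card_product,
        Int.card_Icc, Finset.card_univ, Fintype.card_fin]
      have c1 : (Finset.Icc (A0 / (S.h l * S.w l) - 19154)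
          (A0 / (S.h l * S.w l) + 19154)).card ≤ 38309 := by
        rw [Nat.card_Icc]; omega
      have c2 : (Finset.Icc (B0 / S.h l - 19154) (B0 / S.h l + 19154)).card ≤ 38309 := by
        rw [Nat.card_Icc]; omega
      calc _ ≤ (2736 + 1 - (-2736) : ℤ).toNat * (2736 + 1 - (-2736) : ℤ).toNat
            * (3 * (38309 * 38309)) := by gcongr
        _ ≤ Lam := by
          rw [show ((2736 : ℤ) + 1 - (-2736)).toNat = 5473 from rfl]
          norm_num [Lam]
    · intro y hy hd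
      simp only [Finset.mem_product, Finset.mem_univ, true_and]
      exact ⟨⟨hk1 y hy hd, hk2 y hy hd⟩, hA y hy hd, hB y hy hd⟩
    · intro y hy y' hy' hd hd' hkey
      simp only [Prod.mk.injEq] at hkey
      obtain ⟨⟨e1, e2⟩, e3, e4, e5⟩ := hkey
      have hAg : Agree S V (om y) (om y') l :=
        (hnear y hy hd).1.trans S V ((hnear y' hy' hd').1.symm S V)
      have hcol : S.col l ((om y l).1 : ℕ) = S.col l ((om y' l).1 : ℕ) := by
        have f1 := col_idx S (fun l => ((om y l).1 : ℕ)) l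
        have f2 := col_idx S (fun l => ((om y' l).1 : ℕ)) l
        rw [f1, f2]
        exact congrArg (· % S.m l) e4
      have hrow : S.row l ((om y l).2.1 : ℕ) = S.row l ((om y' l).2.1 : ℕ) := by
        have f1 := row_idx S (fun l => ((om y l).2.1 : ℕ)) l
        have f2 := row_idx S (fun l => ((om y' l).2.1 : ℕ)) l
        rw [f1, f2]
        exact congrArg (· % S.m l) e5
      have hX : X S V l (om y l).1 (om y l).2.1 (om y l).2.2
          = X S V l (om y' l).1 (om y' l).2.1 (om y' l).2.2 := by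
        unfold X
        rw [e3, hcol, hrow]
      have hAg' : Agree S V (om y) (om y') (l + 1) := by
        intro k hk
        rcases Nat.lt_succ_iff_lt_or_eq.1 hk with hk | rfl
        · exact hAg k hk
        · exact hX
      have h1 := dist_le_of S V hAg' (hp _ _ _ e1) (hp _ _ _ e2)
      rw [hom y hy, hom y' hy'] at h1
      rw [dist_eq_norm]
      have h2 := HH_succ_le S l
      linarith

end Crest.Agent.LP
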