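import Crest.Agent.LP.Defs

/-! Module A: existence of the vectors and of the parameter system. -/

set_option autoImplicit false

namespace Crest.Agent.LP

theorem exists_notMem {B : Type*} [NormedAddCommGroup B] [NormedSpace ℝ B]
    (hB : ¬ FiniteDimensional ℝ B) (F : Submodule ℝ B) [FiniteDimensional ℝ F] :
    ∃ x : B, x ∉ F := by
  by_contra hcon
  push Not at hcon
  apply hB
  have h1 : F = ⊤ := by
    rw [eq_top_iff]
    intro x _
    exact hcon x
  subst h1
  exact Module.Finite.equiv (Submodule.topEquiv : (⊤ : Submodule ℝ B) ≃ₗ[ℝ] B)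

/-- PROOF. `e1`: unit vector. `e2`: unit vector with `‖e2 - y‖ ≥ 1/2` for all `y ∈ ℝ e1`
(`riesz_lemma`, `ℝ e1` closed and proper).  Then `|b| ≤ 2‖a e1 + b e2‖` and
`|a| = ‖a e1‖ ≤ ‖a e1 + b e2‖ + |b| ≤ 3‖a e1 + b e2‖`.
The `v i` are chosen one after the other at distance `≥ 1` of the span of `e1, e2` and the previous
ones. -/
theorem exists_vec (B : Type*) [NormedAddCommGroup B] [NormedSpace ℝ B]
    (hB : ¬ FiniteDimensional ℝ B) : Nonempty (Vec B) := by
  classical
  -- e1
  have hbot : IsClosed ((⊥ : Submodule ℝ B) : Set B) := Submodule.closed_of_finiteDimensional _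
  obtain ⟨e1, -, he1, -⟩ := riesz_lemma_of_lt_one (𝕜 := ℝ) hbot (exists_notMem hB ⊥)
    (show (1 / 2 : ℝ) < 1 by norm_num)
  -- e2
  have hc1 : IsClosed ((Submodule.span ℝ {e1} : Submodule ℝ B) : Set B) :=
    Submodule.closed_of_finiteDimensional _
  obtain ⟨e2, -, he2, he2'⟩ := riesz_lemma_of_lt_one (𝕜 := ℝ) hc1
    (exists_notMem hB (Submodule.span ℝ {e1})) (show (1 / 2 : ℝ) < 1 by norm_num)
  have hb : ∀ a b : ℝ, |b| ≤ 2 * ‖a • e1 + b • e2‖ := by
    intro a b
    rcases eq_or_ne b 0 with rfl | hb0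
    · rw [abs_zero]; positivity
    · have h1 : a • e1 + b • e2 = b • (e2 - (-(a / b)) • e1) := by
        rw [smul_sub, smul_smul]
        have : b * -(a / b) = -a := by field_simp
        rw [this, neg_smul, sub_neg_eq_add, add_comm]
      rw [h1, norm_smul, Real.norm_eq_abs]
      have h2 := he2' ((-(a / b)) • e1)
        (Submodule.smul_mem _ _ (Submodule.mem_span_singleton_self e1))
      have h3 : 0 < |b| := abs_pos.mpr hb0
      nlinarith
  have ha : ∀ a b : ℝ, |a| ≤ 3 * ‖a • e1 + b • e2‖ := by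
    intro a b
    have h1 : |a| = ‖a • e1‖ := by rw [norm_smul, he1, mul_one, Real.norm_eq_abs]
    have h2 : a • e1 = (a • e1 + b • e2) - b • e2 := by abel
    have h3 : ‖a • e1‖ ≤ ‖a • e1 + b • e2‖ + ‖b • e2‖ := by
      conv_lhs => rw [h2]
      exact norm_sub_le _ _
    have h4 : ‖b • e2‖ = |b| := by rw [norm_smul, he2, mul_one, Real.norm_eq_abs]
    have h5 := hb a b
    rw [h1]
    linarith
  -- the v i
  set E0 : Submodule ℝ B := Submodule.span ℝ {e1, e2} with hE0
  have hE0mem : ∀ a b : ℝ, a • e1 + b • e2 ∈ E0 := by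
    intro a b
    exact E0.add_mem (E0.smul_mem _ (Submodule.subset_span (by simp)))
      (E0.smul_mem _ (Submodule.subset_span (by simp)))
  have : Std.Symm fun x y : B => ∀ z ∈ E0, 1 ≤ ‖x - y + z‖ := by
    constructor
    intro x y hxy z hz
    have h1 := hxy (-z) (E0.neg_mem hz)
    have h2 : y - x + z = -(x - y + -z) := by abel
    rw [h2, norm_neg]
    exact h1
  obtain ⟨f, hf1, hf2⟩ := exists_seq_of_forall_finset_exists'
    (fun x : B => ‖x‖ ≤ 3 ∧ ∀ z ∈ E0, 1 ≤ ‖x + z‖)
    (fun x y : B => ∀ z ∈ E0, 1 ≤ ‖x - y + z‖) (by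
      intro s _
      let F : Submodule ℝ B := Submodule.span ℝ (({e1, e2} : Set B) ∪ (s : Set B))
      have hfin : (({e1, e2} : Set B) ∪ (s : Set B)).Finite :=
        (Set.toFinite _).union s.finite_toSet
      have hFfd : FiniteDimensional ℝ F := FiniteDimensional.span_of_finite ℝ hfin
      have hFc : IsClosed (F : Set B) := Submodule.closed_of_finiteDimensional _
      obtain ⟨x, hx3, hx⟩ := riesz_lemma_of_norm_lt (𝕜 := ℝ) (c := 2) (R := 3)
        (by norm_num) (by norm_num) hFc (exists_notMem hB F)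
      have hE0F : E0 ≤ F := Submodule.span_mono (Set.subset_union_left)
      refine ⟨x, ⟨hx3, fun z hz => ?_⟩, fun y hy z hz => ?_⟩
      · have h1 := hx (-z) (F.neg_mem (hE0F hz))
        rwa [sub_neg_eq_add] at h1
      · have hyF : y ∈ F := Submodule.subset_span (Set.mem_union_right _ hy)
        have h1 := hx (y + z) (F.add_mem hyF (hE0F hz))
        have h3 : y - x + z = -(x - (y + z)) := by abel
        rw [h3, norm_neg]
        exact h1)
  refine ⟨⟨e1, e2, f, he1.le, he2.le, ha, fun a b => ?_, fun i => ?_, fun i j hij a b => ?_,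
    fun i a b => ?_⟩⟩
  · have := hb a b
    have h0 : 0 ≤ ‖a • e1 + b • e2‖ := norm_nonneg _
    linarith
  · have := (hf1 i).1
    linarith
  · exact hf2 hij _ (hE0mem a b)
  · exact (hf1 i).2 _ (hE0mem a b)

/-- PROOF. Let `p t := (Nat.unpair t).1`, decode `t' = (Nat.unpair l).1` into four naturals
`(a,b,c,d)` (iterated `Nat.unpair`) and put `m l = a + 1`, etc.  Given `a,b,c,d > 0` and `L`, take
`l = Nat.pair (code of (a-1,b-1,c-1,d-1)) L ≥ L` (`Nat.right_le_pair`). -/
theorem exists_sys : Nonempty Sys := by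
  refine ⟨⟨fun l => (Nat.unpair (Nat.unpair (Nat.unpair l).1).1).1 + 1,
    fun l => (Nat.unpair (Nat.unpair (Nat.unpair l).1).1).2 + 1,
    fun l => (Nat.unpair (Nat.unpair (Nat.unpair l).1).2).1 + 1,
    fun l => (Nat.unpair (Nat.unpair (Nat.unpair l).1).2).2 + 1,
    fun l => Nat.succ_pos _, fun l => Nat.succ_pos _, fun l => Nat.succ_pos _,
    fun l => Nat.succ_pos _, ?_⟩⟩
  intro a b c d ha hb hc hd L
  refine ⟨Nat.pair (Nat.pair (Nat.pair (a - 1) (b - 1)) (Nat.pair (c - 1) (d - 1))) L,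
    Nat.right_le_pair _ _, ?_, ?_, ?_, ?_⟩
  · simp only [Nat.unpair_pair]; omega
  · simp only [Nat.unpair_pair]; omega
  · simp only [Nat.unpair_pair]; omega
  · simp only [Nat.unpair_pair]; omega

end Crest.Agent.LP
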