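import Crest.Agent.LP.Defs
import Crest.Agent.LP.VecEx
import Crest.Agent.LP.Compact
import Crest.Agent.LP.Doubling
import Crest.Agent.LP.GridEst
import Crest.Agent.LP.Select
import Crest.Agent.LP.Bridge

/-! Module I: assembly. -/

set_option autoImplicit false

namespace Crest.Agent.LP

universe u v

/-- PROOF. `packing` with `R = 7C`, `ε = c/2` gives `m`; `h = ⌈80C/c⌉ + 1`; `exists_good`, `params`,
`window`; scale the vectors `d i` by `1/h`. -/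
theorem no_embed {B : Type*} [NormedAddCommGroup B] [NormedSpace ℝ B] [CompleteSpace B]
    (S : Sys) (V : Vec B)
    {E : Type*} [NormedAddCommGroup E] [InnerProductSpace ℝ E] [FiniteDimensional ℝ E]
    (F : B → E) (C c : ℝ) (hC : 0 < C) (hc : 0 < c)
    (hF : ∀ x ∈ K S V, ∀ y ∈ K S V, ‖F x - F y‖ ≤ C * ‖x - y‖)
    (hF' : ∀ x ∈ K S V, ∀ y ∈ K S V, c * ‖x - y‖ ≤ ‖F x - F y‖) : False := by
  have : CompleteSpace E := FiniteDimensional.complete ℝ E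
  obtain ⟨m, hm, hpack⟩ := packing (E := E) (7 * C) (c / 2) (by positivity)
  obtain ⟨k1, k2, hk1, hk1C, hk2, hk2C, hall1, hsel, hgood⟩ := exists_good S V F C hC hF
  obtain ⟨h, hh, h80⟩ : ∃ h : ℕ, 0 < h ∧ 80 * C ≤ c * (h : ℝ) := by
    refine ⟨⌈80 * C / c⌉₊ + 1, Nat.succ_pos _, ?_⟩
    have h1 : 80 * C / c ≤ (⌈80 * C / c⌉₊ : ℝ) := Nat.le_ceil _
    have h2 : 80 * C = c * (80 * C / c) := by field_simp
    push_cast
    calc 80 * C = c * (80 * C / c) := h2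
      _ ≤ c * ((⌈80 * C / c⌉₊ : ℝ) + 1) := by
        apply mul_le_mul_of_nonneg_left _ hc.le
        linarith
  have hhR : (0 : ℝ) < (h : ℝ) := by exact_mod_cast hh
  obtain ⟨η, hη, hηC, hpar⟩ := params C c hC hc m h hm hh
  obtain ⟨δ0, hδ0, hall2⟩ := hsel η hη
  obtain ⟨w, N, hw, hN, δ', η', hδ', hη', hδδ, P1, P2⟩ := hpar δ0 hδ0
  obtain ⟨n, z, hz, em, eh, ew, eN, hz1, hz2⟩ := hgood δ' hδ' η' hη' m h w N hm hh hw hN
  have eM : S.M n = bigM m h w N := by rw [Sys.M, em, eh, ew, eN]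
  obtain ⟨d, hd1, hd2⟩ := window S V F C c hC hc hF hF' k1 k2 δ0 δ' η η' hk1 hk1C hk2 hk2C
    hδ0 hδ'.le hη.le hη'.le hηC hδδ hall1 hall2 n z hz
    (by rw [eM, em, eh, ew]; exact P1) (by rw [eM, em, eh, ew]; exact P2)
    (by rw [eh]; exact h80) hz1 hz2
  rw [em, eh] at hd1 hd2
  obtain ⟨i, hi, j, hj, hij, hlt⟩ := hpack (fun i => (h : ℝ)⁻¹ • d i) (by
    intro i hi
    have h1 := hd1 i hi
    rw [norm_smul, norm_inv, Real.norm_of_nonneg hhR.le, inv_mul_le_iff₀ hhR]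
    linarith)
  have h1 := hd2 i hi j hj hij
  rw [← smul_sub, norm_smul, norm_inv, Real.norm_of_nonneg hhR.le, inv_mul_lt_iff₀ hhR] at hlt
  linarith

/-- PROOF. `toEuclidean : Y ≃L[ℝ] EuclideanSpace ℝ (Fin (finrank ℝ Y))`;
`F x = if h : x ∈ K then toEuclidean (f ⟨x,h⟩) else 0`; Lipschitz constants: replace `C` by
`(C+1)·‖toEuclidean‖`, `c` by `1/((c+1)‖toEuclidean.symm‖ + 1)`, etc. -/
theorem main : ∃ Λ : ℕ, ∀ (B : Type u) [NormedAddCommGroup B] [NormedSpace ℝ B] [CompleteSpace B],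
      ¬ FiniteDimensional ℝ B →
      ∃ K : Set B, IsCompact K ∧ Crest.GeometryTopology.DoublingConstLE K Λ ∧
        ∀ (Y : Type v) [NormedAddCommGroup Y] [NormedSpace ℝ Y] [FiniteDimensional ℝ Y]
          (f : K → Y) (c C : NNReal), ¬ (LipschitzWith C f ∧ AntilipschitzWith c f) := by
  classical
  refine ⟨Lam, ?_⟩
  intro B _ _ _ hB
  obtain ⟨S⟩ := exists_sys
  obtain ⟨V⟩ := exists_vec B hB
  refine ⟨K S V, isCompact_K S V, doubling_K S V, ?_⟩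
  rintro Y _ _ _ f c C ⟨hL, hA⟩
  let T : Y ≃L[ℝ] EuclideanSpace ℝ (Fin (Module.finrank ℝ Y)) := toEuclidean
  obtain ⟨a, ha⟩ : ∃ a : NNReal, LipschitzWith a T := ⟨_, T.lipschitz⟩
  obtain ⟨b, hb⟩ : ∃ b : NNReal, AntilipschitzWith b T := ⟨_, T.antilipschitz⟩
  have hL' : LipschitzWith (a * C) (T ∘ f) := ha.comp hL
  have hA' : AntilipschitzWith (c * b) (T ∘ f) := hb.comp hA
  let F : B → EuclideanSpace ℝ (Fin (Module.finrank ℝ Y)) :=
    fun x => if h : x ∈ K S V then T (f ⟨x, h⟩) else 0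
  have hFeq : ∀ x (h : x ∈ K S V), F x = (T ∘ f) ⟨x, h⟩ := fun x h => by
    simp only [F, dif_pos h, Function.comp]
  refine no_embed S V F ((a * C : NNReal) + 1 : ℝ) (((c * b : NNReal) : ℝ) + 1)⁻¹
    (by positivity) (by positivity) ?_ ?_
  · intro x hx y hy
    rw [hFeq x hx, hFeq y hy, ← dist_eq_norm, ← dist_eq_norm]
    have h1 := hL'.dist_le_mul ⟨x, hx⟩ ⟨y, hy⟩
    rw [Subtype.dist_eq] at h1
    have h2 : 0 ≤ dist x y := dist_nonneg
    nlinarith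
  · intro x hx y hy
    rw [hFeq x hx, hFeq y hy, ← dist_eq_norm, ← dist_eq_norm]
    have h1 := hA'.le_mul_dist ⟨x, hx⟩ ⟨y, hy⟩
    rw [Subtype.dist_eq] at h1
    have h2 : 0 ≤ dist ((T ∘ f) ⟨x, hx⟩) ((T ∘ f) ⟨y, hy⟩) := dist_nonneg
    have h3 : (0 : ℝ) < ((c * b : NNReal) : ℝ) + 1 := by positivity
    rw [inv_mul_le_iff₀ h3]
    nlinarith

end Crest.Agent.LP
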